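import Mathlib

/-!
P030, function layer, file 4: Taylor series in a local parameter.

`PS p f`          : `p` is the Taylor series of `f` at `0`;
`Chart h z0`      : `h` is analytic at `z0`, `h z0 = 0`, `h' z0 ≠ 0`;
`Ser h z0 p F`    : near `z0`, `F` is the sum of the series `p` in the local parameter `h`.
-/

open PowerSeries Filter Topology Complex

namespace Vale.Agent.P030.H810

/-- `p` is the Taylor series of `f` at `0` -/
def PS (p : ℂ⟦X⟧) (f : ℂ → ℂ) : Prop :=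
  AnalyticAt ℂ f 0 ∧ ∀ n, coeff n p = iteratedDeriv n f 0 / (n.factorial : ℂ)

lemma PS.unique {p q : ℂ⟦X⟧} {f : ℂ → ℂ} (h1 : PS p f) (h2 : PS q f) : p = q := by
  ext n
  rw [h1.2, h2.2]

lemma exists_PS {f : ℂ → ℂ} (hf : AnalyticAt ℂ f 0) : ∃ p, PS p f :=
  ⟨PowerSeries.mk fun n => iteratedDeriv n f 0 / (n.factorial : ℂ), hf, fun n => by simp⟩

lemma PS.congr {p : ℂ⟦X⟧} {f g : ℂ → ℂ} (h : PS p f) (hfg : f =ᶠ[𝓝 0] g) : PS p g :=
  ⟨h.1.congr hfg, fun n => by rw [h.2, hfg.iteratedDeriv_eq]⟩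

lemma PS.hasSum {p : ℂ⟦X⟧} {f : ℂ → ℂ} (h : PS p f) :
    ∀ᶠ t in 𝓝 (0 : ℂ), HasSum (fun n => coeff n p * t ^ n) (f t) := by
  have h1 := hasFPowerSeriesAt_iff.mp h.1.hasFPowerSeriesAt
  filter_upwards [h1] with t ht
  have : (fun n => t ^ n • (FormalMultilinearSeries.ofScalars ℂ
      (fun n ↦ iteratedDeriv n f 0 / (n.factorial : ℂ))).coeff n) = fun n => coeff n p * t ^ n := by
    funext n
    rw [FormalMultilinearSeries.coeff_ofScalars, smul_eq_mul, h.2 n, mul_comm]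
  rw [this, zero_add] at ht
  exact ht

lemma PS.of_hasSum {p : ℂ⟦X⟧} {f : ℂ → ℂ}
    (h : ∀ᶠ t in 𝓝 (0 : ℂ), HasSum (fun n => coeff n p * t ^ n) (f t)) : PS p f := by
  have h1 : HasFPowerSeriesAt f (FormalMultilinearSeries.ofScalars ℂ (fun n ↦ coeff n p)) 0 := by
    rw [hasFPowerSeriesAt_iff]
    filter_upwards [h] with t ht
    have : (fun n => t ^ n • (FormalMultilinearSeries.ofScalars ℂ
        (fun n ↦ coeff n p)).coeff n) = fun n => coeff n p * t ^ n := by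
      funext n
      rw [FormalMultilinearSeries.coeff_ofScalars, smul_eq_mul, mul_comm]
    rw [this, zero_add]
    exact ht
  have ha : AnalyticAt ℂ f 0 := ⟨_, h1⟩
  refine ⟨ha, fun n => ?_⟩
  have h2 := h1.eq_formalMultilinearSeries ha.hasFPowerSeriesAt
  have h3 := congrArg (fun q => FormalMultilinearSeries.coeff q n) h2
  simpa [FormalMultilinearSeries.coeff_ofScalars] using h3

lemma PS.eventuallyEq {p : ℂ⟦X⟧} {f g : ℂ → ℂ} (hf : PS p f) (hg : PS p g) : f =ᶠ[𝓝 0] g := by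
  filter_upwards [hf.hasSum, hg.hasSum] with t h1 h2
  exact h1.unique h2

lemma PS.const (c : ℂ) : PS (C c) fun _ => c := by
  refine ⟨analyticAt_const, fun n => ?_⟩
  rw [iteratedDeriv_const]
  rcases n with _ | n
  · simp
  · simp

lemma PS.one : PS 1 fun _ => 1 := by simpa using PS.const 1

lemma PS.zero : PS 0 fun _ => 0 := by simpa using PS.const 0

lemma PS.X : PS X fun t => t := by
  refine ⟨analyticAt_id, fun n => ?_⟩
  rw [iteratedDeriv_fun_id_zero, coeff_X]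
  split_ifs with h
  · subst h; simp
  · simp

lemma PS.add {p q : ℂ⟦X⟧} {f g : ℂ → ℂ} (hf : PS p f) (hg : PS q g) :
    PS (p + q) fun t => f t + g t := by
  refine ⟨hf.1.add hg.1, fun n => ?_⟩
  rw [map_add, hf.2, hg.2, iteratedDeriv_fun_add hf.1.contDiffAt hg.1.contDiffAt]
  ring

lemma PS.mul {p q : ℂ⟦X⟧} {f g : ℂ → ℂ} (hf : PS p f) (hg : PS q g) :
    PS (p * q) fun t => f t * g t := by
  refine ⟨hf.1.mul hg.1, fun n => ?_⟩
  rw [iteratedDeriv_fun_mul hf.1.contDiffAt hg.1.contDiffAt, coeff_mul,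
    Finset.Nat.sum_antidiagonal_eq_sum_range_succ (fun i j => coeff i p * coeff j q) n,
    Finset.sum_div]
  refine Finset.sum_congr rfl fun i hi => ?_
  have hin : i ≤ n := Nat.lt_succ_iff.mp (Finset.mem_range.mp hi)
  rw [hf.2, hg.2]
  have h1 : ((n.choose i : ℕ) : ℂ) * (i.factorial : ℂ) * ((n - i).factorial : ℂ)
      = (n.factorial : ℂ) := by
    exact_mod_cast Nat.choose_mul_factorial_mul_factorial hin
  have h2 : (i.factorial : ℂ) ≠ 0 := by exact_mod_cast i.factorial_ne_zero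
  have h3 : ((n - i).factorial : ℂ) ≠ 0 := by exact_mod_cast (n - i).factorial_ne_zero
  have h4 : (n.factorial : ℂ) ≠ 0 := by exact_mod_cast n.factorial_ne_zero
  rw [div_mul_div_comm, div_eq_div_iff (mul_ne_zero h2 h3) h4, ← h1]
  ring

lemma PS.derivative {p : ℂ⟦X⟧} {f : ℂ → ℂ} (hf : PS p f) : PS (d⁄dX ℂ p) (deriv f) := by
  refine ⟨hf.1.deriv, fun n => ?_⟩
  rw [coeff_derivative, hf.2, iteratedDeriv_succ']
  have h1 : ((n + 1).factorial : ℂ) = ((n : ℂ) + 1) * (n.factorial : ℂ) := by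
    rw [Nat.factorial_succ]; push_cast; ring
  have h2 : ((n : ℂ) + 1) ≠ 0 := by exact_mod_cast Nat.succ_ne_zero n
  have h3 : (n.factorial : ℂ) ≠ 0 := by exact_mod_cast n.factorial_ne_zero
  rw [h1]
  field_simp

lemma PS.value {p : ℂ⟦X⟧} {f : ℂ → ℂ} (hf : PS p f) : f 0 = coeff 0 p := by
  rw [hf.2]; simp

/-! ### charts -/

/-- a local parameter at `z0` -/
structure Chart (h : ℂ → ℂ) (z0 : ℂ) : Prop where
  an : AnalyticAt ℂ h z0
  zero : h z0 = 0
  der : deriv h z0 ≠ 0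

lemma Chart.exists_inv {h : ℂ → ℂ} {z0 : ℂ} (H : Chart h z0) :
    ∃ T : ℂ → ℂ, AnalyticAt ℂ T 0 ∧ T 0 = z0 ∧ (∀ᶠ z in 𝓝 z0, T (h z) = z) ∧
      ∀ᶠ t in 𝓝 0, h (T t) = t := by
  have hs : HasStrictDerivAt h (deriv h z0) z0 := H.an.hasStrictDerivAt
  set e := hs.hasStrictFDerivAt_equiv H.der
  have hc : ContDiffAt ℂ 1 h z0 := H.an.contDiffAt
  set T := hs.localInverse h (deriv h z0) z0 H.der with hT
  have hT1 : ContDiffAt ℂ 1 T 0 := by
    have := hc.to_localInverse (n := 1) (f' := ContinuousLinearEquiv.unitsEquivAut ℂ (Units.mk0 _ H.der))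
      (hs.hasStrictFDerivAt_equiv H.der).hasFDerivAt one_ne_zero
    rw [H.zero] at this
    exact this
  have hT2 : AnalyticAt ℂ T 0 := by
    have h1 : ∀ᶠ t in 𝓝 (0 : ℂ), ContDiffAt ℂ 1 T t := hT1.eventually (by simp)
    rw [analyticAt_iff_eventually_differentiableAt]
    filter_upwards [h1] with t ht
    exact ht.differentiableAt one_ne_zero
  refine ⟨T, hT2, ?_, hs.eventually_left_inverse H.der, ?_⟩
  · have h1 := (hs.eventually_left_inverse H.der).self_of_nhds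
    rw [H.zero] at h1
    exact h1
  · have h1 := hs.eventually_right_inverse H.der
    rw [H.zero] at h1
    exact h1

/-- near `z0` the function `F` is the sum of `p` in the local parameter `h` -/
def Ser (h : ℂ → ℂ) (z0 : ℂ) (p : ℂ⟦X⟧) (F : ℂ → ℂ) : Prop :=
  ∃ f, PS p f ∧ F =ᶠ[𝓝 z0] fun z => f (h z)

section

variable {h : ℂ → ℂ} {z0 : ℂ}

lemma Chart.tendsto (H : Chart h z0) : Tendsto h (𝓝 z0) (𝓝 0) := by
  have := H.an.continuousAt.tendsto
  rwa [H.zero] at this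

lemma Ser.hasSum (H : Chart h z0) {p : ℂ⟦X⟧} {F : ℂ → ℂ} (hF : Ser h z0 p F) :
    ∀ᶠ z in 𝓝 z0, HasSum (fun n => coeff n p * h z ^ n) (F z) := by
  obtain ⟨f, hf, e⟩ := hF
  filter_upwards [H.tendsto.eventually hf.hasSum, e] with z h1 h2
  rw [h2]
  exact h1

lemma Ser.of_hasSum (H : Chart h z0) {p : ℂ⟦X⟧} {F : ℂ → ℂ}
    (hF : ∀ᶠ z in 𝓝 z0, HasSum (fun n => coeff n p * h z ^ n) (F z)) : Ser h z0 p F := by
  obtain ⟨T, hT, hT0, hl, hr⟩ := H.exists_inv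
  have ht : Tendsto T (𝓝 0) (𝓝 z0) := by
    have := hT.continuousAt.tendsto
    rwa [hT0] at this
  refine ⟨fun t => F (T t), PS.of_hasSum ?_, ?_⟩
  · filter_upwards [ht.eventually hF, hr] with t h1 h2
    rwa [h2] at h1
  · filter_upwards [hl] with z h1
    rw [h1]

lemma exists_Ser (H : Chart h z0) {F : ℂ → ℂ} (hF : AnalyticAt ℂ F z0) : ∃ p, Ser h z0 p F := by
  obtain ⟨T, hT, hT0, hl, hr⟩ := H.exists_inv
  have h1 : AnalyticAt ℂ (fun t => F (T t)) 0 := by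
    have : AnalyticAt ℂ F (T 0) := by rwa [hT0]
    exact this.comp hT
  obtain ⟨p, hp⟩ := exists_PS h1
  refine ⟨p, _, hp, ?_⟩
  filter_upwards [hl] with z h1
  rw [h1]

lemma Ser.unique (H : Chart h z0) {p q : ℂ⟦X⟧} {F : ℂ → ℂ} (h1 : Ser h z0 p F)
    (h2 : Ser h z0 q F) : p = q := by
  obtain ⟨f, hf, ef⟩ := h1
  obtain ⟨g, hg, eg⟩ := h2
  obtain ⟨T, hT, hT0, hl, hr⟩ := H.exists_inv
  have ht : Tendsto T (𝓝 0) (𝓝 z0) := by
    have := hT.continuousAt.tendsto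
    rwa [hT0] at this
  have : f =ᶠ[𝓝 0] g := by
    filter_upwards [ht.eventually ef, ht.eventually eg, hr] with t h3 h4 h5
    rw [h5] at h3 h4
    rw [← h3, ← h4]
  exact (hf.congr this).unique hg

lemma Ser.analyticAt (H : Chart h z0) {p : ℂ⟦X⟧} {F : ℂ → ℂ} (h1 : Ser h z0 p F) :
    AnalyticAt ℂ F z0 := by
  obtain ⟨f, hf, ef⟩ := h1
  have : AnalyticAt ℂ f (h z0) := by rw [H.zero]; exact hf.1
  exact (this.comp H.an).congr ef.symm

lemma Ser.congr {p : ℂ⟦X⟧} {F G : ℂ → ℂ} (h1 : Ser h z0 p F) (e : F =ᶠ[𝓝 z0] G) :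
    Ser h z0 p G := by
  obtain ⟨f, hf, ef⟩ := h1
  exact ⟨f, hf, e.symm.trans ef⟩

lemma Ser.eventuallyEq (H : Chart h z0) {p : ℂ⟦X⟧} {F G : ℂ → ℂ} (h1 : Ser h z0 p F)
    (h2 : Ser h z0 p G) : F =ᶠ[𝓝 z0] G := by
  filter_upwards [h1.hasSum H, h2.hasSum H] with z h3 h4
  exact h3.unique h4

lemma Ser.const (c : ℂ) : Ser h z0 (C c) fun _ => c := ⟨_, PS.const c, Eventually.of_forall fun _ => rfl⟩

lemma Ser.one : Ser h z0 1 fun _ => 1 := ⟨_, PS.one, Eventually.of_forall fun _ => rfl⟩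

lemma Ser.zero : Ser h z0 0 fun _ => 0 := ⟨_, PS.zero, Eventually.of_forall fun _ => rfl⟩

lemma Ser.X : Ser h z0 X h := ⟨_, PS.X, Eventually.of_forall fun _ => rfl⟩

lemma Ser.add {p q : ℂ⟦X⟧} {F G : ℂ → ℂ} (h1 : Ser h z0 p F) (h2 : Ser h z0 q G) :
    Ser h z0 (p + q) fun z => F z + G z := by
  obtain ⟨f, hf, ef⟩ := h1
  obtain ⟨g, hg, eg⟩ := h2
  refine ⟨_, hf.add hg, ?_⟩
  filter_upwards [ef, eg] with z h3 h4
  rw [h3, h4]

lemma Ser.mul {p q : ℂ⟦X⟧} {F G : ℂ → ℂ} (h1 : Ser h z0 p F) (h2 : Ser h z0 q G) :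
    Ser h z0 (p * q) fun z => F z * G z := by
  obtain ⟨f, hf, ef⟩ := h1
  obtain ⟨g, hg, eg⟩ := h2
  refine ⟨_, hf.mul hg, ?_⟩
  filter_upwards [ef, eg] with z h3 h4
  rw [h3, h4]

lemma Ser.neg {p : ℂ⟦X⟧} {F : ℂ → ℂ} (h1 : Ser h z0 p F) : Ser h z0 (-p) fun z => - F z := by
  have h2 := (Ser.const (h := h) (z0 := z0) (-1)).mul h1
  simpa using h2

lemma Ser.sub {p q : ℂ⟦X⟧} {F G : ℂ → ℂ} (h1 : Ser h z0 p F) (h2 : Ser h z0 q G) :
    Ser h z0 (p - q) fun z => F z - G z := by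
  simpa [sub_eq_add_neg] using h1.add h2.neg

lemma Ser.pow {p : ℂ⟦X⟧} {F : ℂ → ℂ} (h1 : Ser h z0 p F) (n : ℕ) :
    Ser h z0 (p ^ n) fun z => F z ^ n := by
  induction n with
  | zero => simpa using Ser.one (h := h) (z0 := z0)
  | succ n ih =>
    have := ih.mul h1
    simpa [pow_succ] using this

lemma Ser.sum {ι : Type*} (s : Finset ι) {p : ι → ℂ⟦X⟧} {F : ι → ℂ → ℂ}
    (h1 : ∀ i ∈ s, Ser h z0 (p i) (F i)) : Ser h z0 (∑ i ∈ s, p i) fun z => ∑ i ∈ s, F i z := by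
  classical
  induction s using Finset.induction_on with
  | empty => simpa using Ser.zero (h := h) (z0 := z0)
  | insert a s ha ih =>
    have h2 := (h1 a (Finset.mem_insert_self _ _)).add
      (ih fun i hi => h1 i (Finset.mem_insert_of_mem hi))
    simpa [Finset.sum_insert ha] using h2

lemma Ser.value (H : Chart h z0) {p : ℂ⟦X⟧} {F : ℂ → ℂ} (h1 : Ser h z0 p F) :
    F z0 = coeff 0 p := by
  obtain ⟨f, hf, ef⟩ := h1
  have h2 : F z0 = f (h z0) := ef.self_of_nhds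
  rw [h2, H.zero, hf.value]

/-- the derivative with respect to the local parameter -/
lemma Ser.derivative (H : Chart h z0) {p : ℂ⟦X⟧} {F G : ℂ → ℂ} (h1 : Ser h z0 p F)
    (hG : ∀ᶠ z in 𝓝 z0, deriv F z = deriv h z * G z) : Ser h z0 (d⁄dX ℂ p) G := by
  obtain ⟨f, hf, ef⟩ := h1
  refine ⟨_, hf.derivative, ?_⟩
  have h2 : ∀ᶠ z in 𝓝 z0, deriv h z ≠ 0 := H.an.deriv.continuousAt.eventually_ne H.der
  have h3 : ∀ᶠ z in 𝓝 z0, AnalyticAt ℂ f (h z) :=
    H.tendsto.eventually hf.1.eventually_analyticAt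
  filter_upwards [ef.eventuallyEq_nhds, hG, h2, h3, H.an.eventually_analyticAt]
    with z h4 h5 h6 h7 h8
  have h9 : deriv F z = deriv f (h z) * deriv h z := by
    rw [h4.deriv_eq]
    exact (h7.differentiableAt.hasDerivAt.comp z h8.differentiableAt.hasDerivAt).deriv
  have h10 : deriv h z * G z = deriv h z * deriv f (h z) := by
    rw [← h5, h9, mul_comm]
  exact mul_left_cancel₀ h6 h10

lemma eq_of_derivative_eq {p q : ℂ⟦X⟧} (h1 : d⁄dX ℂ p = d⁄dX ℂ q) (h0 : coeff 0 p = coeff 0 q) :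
    p = q := by
  ext n
  rcases n with _ | n
  · exact h0
  · have h2 := congrArg (coeff n) h1
    rw [coeff_derivative, coeff_derivative] at h2
    have h3 : ((n : ℂ) + 1) ≠ 0 := by exact_mod_cast Nat.succ_ne_zero n
    exact mul_right_cancel₀ h3 h2

/-- integration with respect to the local parameter -/
lemma Ser.integral (H : Chart h z0) {p : ℂ⟦X⟧} {F G : ℂ → ℂ} (h1 : Ser h z0 (d⁄dX ℂ p) G)
    (hF : AnalyticAt ℂ F z0) (h0 : F z0 = coeff 0 p)
    (hG : ∀ᶠ z in 𝓝 z0, deriv F z = deriv h z * G z) : Ser h z0 p F := by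
  obtain ⟨q, hq⟩ := exists_Ser H hF
  have h2 := hq.derivative H hG
  have h3 : q = p := eq_of_derivative_eq (h2.unique H h1) (by rw [← hq.value H, h0])
  rwa [h3] at hq

lemma PS.quot {q : ℂ⟦X⟧} {f : ℂ → ℂ} {k : ℕ} (hf : PS (PowerSeries.X ^ k * q) f) :
    ∃ f1, PS q f1 ∧ f =ᶠ[𝓝 0] fun t => t ^ k * f1 t := by
  obtain ⟨f1, hf1⟩ : ∃ f1, PS q f1 := by
    refine ⟨fun t => ∑' n, coeff n q * t ^ n, PS.of_hasSum ?_⟩
    filter_upwards [hf.hasSum] with t ht
    rcases eq_or_ne t 0 with rfl | ht0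
    · have : Summable fun n => coeff n q * (0 : ℂ) ^ n := by
        refine summable_of_ne_finset_zero (s := {0}) fun n hn => ?_
        have hn : n ≠ 0 := by simpa using hn
        simp [hn]
      exact this.hasSum
    · have h2 : Summable fun n => coeff (n + k) (PowerSeries.X ^ k * q) * t ^ (n + k) :=
        (summable_nat_add_iff k).mpr ht.summable
      have h3 : (fun n => coeff (n + k) (PowerSeries.X ^ k * q) * t ^ (n + k))
          = fun n => t ^ k * (coeff n q * t ^ n) := by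
        funext n
        rw [coeff_X_pow_mul, pow_add]
        ring
      rw [h3] at h2
      exact ((summable_mul_left_iff (pow_ne_zero k ht0)).mp h2).hasSum
  refine ⟨f1, hf1, ?_⟩
  have h2 : PS (PowerSeries.X ^ k * q) fun t => t ^ k * f1 t := by
    obtain ⟨g, hg, eg⟩ : Ser (fun t => t) 0 (PowerSeries.X ^ k) fun t => t ^ k :=
      Ser.pow ⟨_, PS.X, Eventually.of_forall fun _ => rfl⟩ k
    exact (hg.congr eg.symm).mul hf1
  exact hf.eventuallyEq h2

lemma Chart.factor (H : Chart h z0) : ∃ u : ℂ → ℂ, AnalyticAt ℂ u z0 ∧ u z0 = deriv h z0 ∧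
    ∀ z, h z = (z - z0) * u z := by
  refine ⟨dslope h z0, ?_, dslope_same h z0, fun z => ?_⟩
  · obtain ⟨P, hP⟩ := H.an
    exact hP.has_fpower_series_dslope_fslope.analyticAt
  · have := sub_smul_dslope h z0 z
    rw [H.zero, sub_zero, smul_eq_mul] at this
    exact this.symm

/-- leading coefficient -/
lemma Ser.leading (H : Chart h z0) {p : ℂ⟦X⟧} {F : ℂ → ℂ} (h1 : Ser h z0 p F) {k : ℕ}
    (hk : ∀ m < k, coeff m p = 0) :
    ∃ g : ℂ → ℂ, AnalyticAt ℂ g z0 ∧ g z0 = deriv h z0 ^ k * coeff k p ∧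
      ∀ᶠ z in 𝓝 z0, F z = (z - z0) ^ k * g z := by
  obtain ⟨f, hf, ef⟩ := h1
  obtain ⟨q, rfl⟩ : PowerSeries.X ^ k ∣ p := X_pow_dvd_iff.mpr hk
  obtain ⟨f1, hf1, h4⟩ := hf.quot
  obtain ⟨u, hu, hu0, hue⟩ := H.factor
  have h5 : AnalyticAt ℂ (fun z => f1 (h z)) z0 := by
    have : AnalyticAt ℂ f1 (h z0) := by rw [H.zero]; exact hf1.1
    exact this.comp H.an
  refine ⟨fun z => u z ^ k * f1 (h z), (hu.pow k).mul h5, ?_, ?_⟩
  · have h6 : coeff k (PowerSeries.X ^ k * q) = coeff 0 q := by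
      have := coeff_X_pow_mul q k 0
      simpa using this
    show u z0 ^ k * f1 (h z0) = deriv h z0 ^ k * coeff k (PowerSeries.X ^ k * q)
    rw [hu0, H.zero, hf1.value, h6]
  · filter_upwards [ef, H.tendsto.eventually h4] with z h6 h7
    have h8 : h z ^ k = (z - z0) ^ k * u z ^ k := by rw [hue z, mul_pow]
    show F z = (z - z0) ^ k * (u z ^ k * f1 (h z))
    rw [h6, h7, h8, mul_assoc]

end

end Vale.Agent.P030.H810
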