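import Vale.Agent.P030.H810.KV
import Vale.Agent.P030.H3.KZero

/-!
P030, function layer, file 12: helper3's double integral is the continuation of `serK`.
-/

open Complex Metric

namespace Vale.Agent.P030.H810

lemma mem_OmK_iff {u : ℂ} : u ∈ OmK ↔ u ∈ H3.OmK := by
  constructor
  · rintro ⟨h1, h2⟩ ⟨h3, h4⟩
    rcases le_abs.mp h4 with h | h
    · rcases h1 with h5 | h5
      · simp only [Complex.sub_re, Complex.one_re] at h5
        linarith
      · simp only [Complex.sub_im, Complex.one_im] at h5
        exact h5 (by rw [h3]; ring)
    · rcases h2 with h5 | h5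
      · simp only [Complex.add_re, Complex.one_re] at h5
        linarith
      · simp only [Complex.add_im, Complex.one_im] at h5
        exact h5 (by rw [h3]; ring)
  · intro h
    by_cases h3 : u.im = 0
    · have h4 : |u.re| < 1 := by
        by_contra h5
        exact h ⟨h3, not_lt.mp h5⟩
      have h5 := abs_lt.mp h4
      refine ⟨Or.inl ?_, Or.inl ?_⟩
      · simp only [Complex.sub_re, Complex.one_re]; linarith
      · simp only [Complex.add_re, Complex.one_re]; linarith
    · exact mem_OmK_of_im h3

/-- **existence of the continuation** -/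
theorem isKc : IsKc H3.Kc := by
  refine ⟨?_, fun u hu => ?_⟩
  · exact H3.differentiableOn_Kc.mono fun u hu => mem_OmK_iff.mp hu
  · have h1 := H3.hasSum_Kc hu
    have h2 := pg_serK.hasSum hu
    have h3 : (fun n => phQ (PowerSeries.coeff n T.serK) * u ^ n)
        = fun n : ℕ => ((PowerSeries.coeff n T.serK : ℚ) : ℂ) * u ^ n := by
      funext n
      simp [phQ]
    rw [h3] at h2
    exact h1.unique h2

end Vale.Agent.P030.H810
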