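import Vale.Agent.P030.H810.Hol

/-!
P030, function layer, file 3: the uniformising function `S` (= modulus `k` as a function of the
square root of the nome), `kap = 2K/pi`, and their differential equations.
-/

namespace Vale.Agent.P030.H810

open Complex Metric Set Filter Topology

/-- `theta_2/theta_3` without the square -/
noncomputable def sig (z : ℂ) : ℂ := z * (C (z ^ 4) / A (z ^ 4))

/-- the uniformising function: `S z = 4 z + ...` -/
noncomputable def S (z : ℂ) : ℂ := z * (C (z ^ 2) / A (z ^ 2)) ^ 2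

/-- `2K/pi` -/
noncomputable def kap (z : ℂ) : ℂ := A (z ^ 2) ^ 2

/-- `z S' / S` -/
noncomputable def R (z : ℂ) : ℂ := A (-z ^ 2) ^ 4

lemma norm_four_lt {z : ℂ} (h : ‖z‖ < 1) : ‖z ^ 4‖ < 1 := by
  rw [norm_pow]
  exact pow_lt_one₀ (norm_nonneg z) h four_ne_zero

lemma norm_neg_sq_lt {z : ℂ} (h : ‖z‖ < 1) : ‖-z ^ 2‖ < 1 := by
  rw [norm_neg]
  exact norm_sq_lt h

lemma A2_ne {z : ℂ} (h : ‖z‖ < 1) : A (z ^ 2) ≠ 0 := A_ne_zero (norm_sq_lt h)
lemma A4_ne {z : ℂ} (h : ‖z‖ < 1) : A (z ^ 4) ≠ 0 := A_ne_zero (norm_four_lt h)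
lemma C2_ne {z : ℂ} (h : ‖z‖ < 1) : C (z ^ 2) ≠ 0 := C_ne_zero (norm_sq_lt h)
lemma kap_ne {z : ℂ} (h : ‖z‖ < 1) : kap z ≠ 0 := pow_ne_zero 2 (A2_ne h)
lemma R_ne {z : ℂ} (h : ‖z‖ < 1) : R z ≠ 0 := pow_ne_zero 4 (A_ne_zero (norm_neg_sq_lt h))

lemma hol_CA : Hol fun z => C (z ^ 2) / A (z ^ 2) :=
  hol_C.comp_sq.div hol_A.comp_sq fun _ hz => A2_ne hz

lemma hol_S : Hol S := hol_id.mul (hol_CA.pow 2)

lemma hol_kap : Hol kap := hol_A.comp_sq.pow 2

lemma hol_R : Hol R := (Hol.comp_sq (f := fun z => A (-z)) hol_A.comp_neg).pow 4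

@[simp] lemma S_zero : S 0 = 0 := by simp [S]
@[simp] lemma kap_zero : kap 0 = 1 := by simp [kap]
@[simp] lemma R_zero : R 0 = 1 := by simp [R]

/-- `sig z ^ 2 = S (z^2)` -/
lemma sig_sq (z : ℂ) : sig z ^ 2 = S (z ^ 2) := by
  simp only [sig, S]
  rw [← pow_mul]
  norm_num
  ring

lemma kap_double {z : ℂ} (h : ‖z‖ < 1) : kap z = (1 + S (z ^ 2)) * kap (z ^ 2) := by
  have h1 := A_sq (norm_sq_lt h)
  have h4 := A4_ne h
  simp only [kap, S]
  rw [h1, ← pow_mul]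
  norm_num
  field_simp

lemma one_add_S_sq_ne {z : ℂ} (h : ‖z‖ < 1) : 1 + S (z ^ 2) ≠ 0 := by
  intro h0
  have h1 := kap_double h
  rw [h0, zero_mul] at h1
  exact kap_ne h h1

lemma one_sub_S_sq' {z : ℂ} (h : ‖z‖ < 1) : A (-z ^ 2) ^ 2 = (1 - S (z ^ 2)) * kap (z ^ 2) := by
  have h1 := A_neg_sq (norm_sq_lt h)
  have h4 := A4_ne h
  simp only [kap, S]
  rw [h1, ← pow_mul]
  norm_num
  field_simp

/-- `(1 + S(z^2)) S(z) = 2 sig(z)` -/
lemma S_double {z : ℂ} (h : ‖z‖ < 1) : (1 + S (z ^ 2)) * S z = 2 * sig z := by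
  have h1 := A_sq (norm_sq_lt h)
  have h3 := C_sq (norm_sq_lt h)
  have h4 := A4_ne h
  have h2 := A2_ne h
  have e4 : (z ^ 2) ^ 2 = z ^ 4 := by ring
  rw [e4] at h1 h3
  have h5 : 1 + S (z ^ 2) = A (z ^ 2) ^ 2 / A (z ^ 4) ^ 2 := by
    rw [h1]
    simp only [S]
    rw [e4]
    field_simp
  rw [h5]
  simp only [S, sig]
  rw [div_pow, h3]
  field_simp

lemma S_sq_double {z : ℂ} (h : ‖z‖ < 1) : (1 + S (z ^ 2)) ^ 2 * S z ^ 2 = 4 * S (z ^ 2) := by
  have h1 := S_double h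
  calc (1 + S (z ^ 2)) ^ 2 * S z ^ 2 = ((1 + S (z ^ 2)) * S z) ^ 2 := by ring
    _ = 4 * sig z ^ 2 := by rw [h1]; ring
    _ = 4 * S (z ^ 2) := by rw [sig_sq]

/-- Jacobi: `1 - S^2 = (theta_4/theta_3)^4` -/
theorem one_sub_S_sq {z : ℂ} (h : ‖z‖ < 1) : 1 - S z ^ 2 = (A (-z ^ 2) / A (z ^ 2)) ^ 4 := by
  have h1 := jacobi (norm_sq_lt h)
  have h2 := A2_ne h
  rw [div_pow, ← h1]
  simp only [S]
  field_simp

theorem one_sub_S_sq_ne {z : ℂ} (h : ‖z‖ < 1) : 1 - S z ^ 2 ≠ 0 := by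
  rw [one_sub_S_sq h]
  exact pow_ne_zero 4 (div_ne_zero (A_ne_zero (norm_neg_sq_lt h)) (A2_ne h))

theorem S_ne_one {z : ℂ} (h : ‖z‖ < 1) : S z ≠ 1 := by
  intro h0
  apply one_sub_S_sq_ne h
  rw [h0]; ring

theorem S_ne_neg_one {z : ℂ} (h : ‖z‖ < 1) : S z ≠ -1 := by
  intro h0
  apply one_sub_S_sq_ne h
  rw [h0]; ring

lemma one_sub_S_ne {z : ℂ} (h : ‖z‖ < 1) : 1 - S z ≠ 0 := fun h0 =>
  S_ne_one h (sub_eq_zero.mp h0).symm

lemma one_add_S_ne {z : ℂ} (h : ‖z‖ < 1) : 1 + S z ≠ 0 := fun h0 =>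
  S_ne_neg_one h (by linear_combination h0)

theorem S_eq_zero_iff {z : ℂ} (h : ‖z‖ < 1) : S z = 0 ↔ z = 0 := by
  have h1 : (C (z ^ 2) / A (z ^ 2)) ^ 2 ≠ 0 := pow_ne_zero 2 (div_ne_zero (C2_ne h) (A2_ne h))
  simp only [S, mul_eq_zero, h1, or_false]

theorem R_eq {z : ℂ} (h : ‖z‖ < 1) : R z = (1 - S z ^ 2) * kap z ^ 2 := by
  have h2 := A2_ne h
  rw [one_sub_S_sq h]
  simp only [R, kap]
  field_simp

/-- the second doubling rule -/
lemma R_double {z : ℂ} (h : ‖z‖ < 1) : (1 + S (z ^ 2)) * R z = (1 - S (z ^ 2)) * R (z ^ 2) := by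
  have h1 := A_mul_A_neg (norm_sq_lt h)
  have h2 := one_sub_S_sq' h
  have h3 := kap_double h
  have h4 := kap_ne (norm_sq_lt h)
  have e4 : R (z ^ 2) = A (z ^ 2) ^ 2 * A (-z ^ 2) ^ 2 := by rw [h1]; rfl
  have e5 : R z = A (-z ^ 2) ^ 2 * A (-z ^ 2) ^ 2 := by simp only [R]; ring
  have e6 : A (z ^ 2) ^ 2 = (1 + S (z ^ 2)) * kap (z ^ 2) := h3
  rw [e4, e5, e6, h2]
  ring

/-- auxiliary: `S z = z h(z)` with `h` without zeros -/
noncomputable def hS (z : ℂ) : ℂ := (C (z ^ 2) / A (z ^ 2)) ^ 2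

lemma hol_hS : Hol hS := hol_CA.pow 2

lemma hS_ne {z : ℂ} (h : ‖z‖ < 1) : hS z ≠ 0 := pow_ne_zero 2 (div_ne_zero (C2_ne h) (A2_ne h))

lemma S_eq (z : ℂ) : S z = z * hS z := rfl

/-- logarithmic derivative of `S` -/
noncomputable def LS (z : ℂ) : ℂ := 1 + D hS z / hS z

lemma hol_LS : Hol LS := (hol_const 1).add (hol_hS.Dz.div hol_hS fun _ hz => hS_ne hz)

lemma D_id (z : ℂ) : D (fun z => z) z = z := by simp [D]

lemma D_S_eq_LS {z : ℂ} (h : ‖z‖ < 1) : D S z = S z * LS z := by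
  have h1 : D S z = D (fun z => z * hS z) z := rfl
  rw [h1, D_mul hol_id hol_hS h, D_id, S_eq, LS]
  have h2 := hS_ne h
  field_simp

lemma LS_double {z : ℂ} (h : ‖z‖ < 1) : (1 + S (z ^ 2)) * LS z = (1 - S (z ^ 2)) * LS (z ^ 2) := by
  rcases eq_or_ne z 0 with rfl | hz
  · norm_num
  · have h1 : D (fun z => (1 + S (z ^ 2)) ^ 2 * S z ^ 2) z = D (fun z => 4 * S (z ^ 2)) z :=
      D_congr (fun w hw => S_sq_double hw) h
    have hSq : Hol fun z => S (z ^ 2) := hol_S.comp_sq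
    have h1S : Hol fun z => 1 + S (z ^ 2) := (hol_const 1).add hSq
    rw [D_mul (h1S.pow 2) (hol_S.pow 2) h, D_const_mul hSq 4 h, D_sq h1S h, D_sq hol_S h,
      D_add (hol_const 1) hSq h, D_const, D_comp_sq hol_S h, D_S_eq_LS h,
      D_S_eq_LS (norm_sq_lt h)] at h1
    have h2 := S_sq_double h
    have h3 := one_add_S_sq_ne h
    have h4 : S (z ^ 2) ≠ 0 := by
      rw [Ne, S_eq_zero_iff (norm_sq_lt h)]
      exact pow_ne_zero 2 hz
    set s := S (z ^ 2)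
    set l := LS (z ^ 2)
    have h5 : 8 * s * ((1 + s) * LS z) = 8 * s * ((1 - s) * l) := by
      have h6 : 2 * (1 + s) * (0 + 2 * (s * l)) * S z ^ 2 + (1 + s) ^ 2 * (2 * S z * (S z * LS z))
          = 4 * (2 * (s * l)) := h1
      have h7 : 2 * (1 + s) * (0 + 2 * (s * l)) * S z ^ 2 * (1 + s) +
          (1 + s) ^ 2 * (2 * S z * (S z * LS z)) * (1 + s) = 4 * (2 * (s * l)) * (1 + s) := by
        rw [← add_mul, h6]
      have h8 : 4 * (s * l) * ((1 + s) ^ 2 * S z ^ 2) + 2 * LS z * (1 + s) * ((1 + s) ^ 2 * S z ^ 2)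
          = 4 * (2 * (s * l)) * (1 + s) := by
        rw [← h7]; ring
      rw [h2] at h8
      linear_combination h8
    exact mul_left_cancel₀ (by simpa using h4) h5

/-- the differential equation of the uniformising function, first form -/
theorem LS_eq_R {z : ℂ} (h : ‖z‖ < 1) : LS z = R z := by
  have h1 : Hol fun z => LS z - R z := hol_LS.sub hol_R
  have h2 : ∀ z, ‖z‖ < 1 → LS z - R z =
      ((1 - S (z ^ 2)) / (1 + S (z ^ 2))) * (LS (z ^ 2) - R (z ^ 2)) := by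
    intro z hz
    have h3 := LS_double hz
    have h4 := R_double hz
    have h5 := one_add_S_sq_ne hz
    rw [div_mul_eq_mul_div, eq_div_iff h5]
    linear_combination h3 - h4
  have hc : ContinuousAt (fun z => (1 - S (z ^ 2)) / (1 + S (z ^ 2))) 0 := by
    have h5 : Hol fun z => (1 - S (z ^ 2)) / (1 + S (z ^ 2)) :=
      ((hol_const 1).sub hol_S.comp_sq).div ((hol_const 1).add hol_S.comp_sq)
        fun _ hz => one_add_S_sq_ne hz
    exact (h5.at (by simp)).continuousAt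
  have h3 := h1.zero_of_iter hc (by simp [LS]) h2 h
  exact sub_eq_zero.mp h3

/-- `z S' = S (1 - S^2) kap^2` -/
theorem D_S {z : ℂ} (h : ‖z‖ < 1) : D S z = S z * R z := by
  rw [D_S_eq_LS h, LS_eq_R h]

theorem D_S' {z : ℂ} (h : ‖z‖ < 1) : D S z = S z * ((1 - S z ^ 2) * kap z ^ 2) := by
  rw [D_S h, R_eq h]

lemma kap_inv_ne {z : ℂ} (h : ‖z‖ < 1) : (kap z)⁻¹ ≠ 0 := inv_ne_zero (kap_ne h)

/-- `f = 1/kap` -/
noncomputable def kin (z : ℂ) : ℂ := (kap z)⁻¹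

lemma hol_kin : Hol kin := hol_kap.inv fun _ hz => kap_ne hz

lemma kin_mul {z : ℂ} (h : ‖z‖ < 1) : kin z * kap z = 1 := inv_mul_cancel₀ (kap_ne h)

/-- `g = 1/(1+S)` -/
noncomputable def gin (z : ℂ) : ℂ := 1 / (1 + S z)

lemma hol_gin : Hol gin :=
  (hol_const 1).div ((hol_const 1).add hol_S) fun _ hz => one_add_S_ne hz

lemma kin_double {z : ℂ} (h : ‖z‖ < 1) : kin z = kin (z ^ 2) * gin (z ^ 2) := by
  have h1 := kap_double h
  simp only [kin, gin]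
  rw [h1, mul_inv, one_div, mul_comm]

lemma D_kin {z : ℂ} (h : ‖z‖ < 1) : D kin z = - (D kap z) * kin z ^ 2 := by
  have h1 : D (fun z => kin z * kap z) z = D (fun _ => (1 : ℂ)) z :=
    D_congr (fun w hw => kin_mul hw) h
  rw [D_mul hol_kin hol_kap h, D_const] at h1
  have h2 := kin_mul h
  have h3 := kap_ne h
  have h4 : D kin z * kap z = - (kin z * D kap z) := by linear_combination h1
  have h5 : D kin z = D kin z * kap z * kin z := by
    linear_combination (- D kin z) * h2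
  rw [h5, h4]
  ring

lemma D_gin {z : ℂ} (h : ‖z‖ < 1) : D gin z = - (S z * (1 - S z) / (1 + S z)) * kap z ^ 2 := by
  have h1 := one_add_S_ne h
  have h2 : D gin z = D (fun z => 1 / (1 + S z)) z := rfl
  rw [h2, D_div (hol_const 1) ((hol_const 1).add hol_S) h h1, D_const,
    D_add (hol_const 1) hol_S h, D_const, D_S' h]
  field_simp
  ring

/-- `S (1-S)/(1+S)` -/
noncomputable def pin (z : ℂ) : ℂ := S z * (1 - S z) / (1 + S z)

lemma hol_pin : Hol pin :=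
  (hol_S.mul ((hol_const 1).sub hol_S)).div ((hol_const 1).add hol_S) fun _ hz => one_add_S_ne hz

lemma D_pin {z : ℂ} (h : ‖z‖ < 1) :
    D pin z = S z * (1 - S z) * kap z ^ 2 * (1 - 2 * S z - S z ^ 2) / (1 + S z) := by
  have h1 := one_add_S_ne h
  have h2 : D pin z = D (fun z => S z * (1 - S z) / (1 + S z)) z := rfl
  rw [h2, D_div (hol_S.mul ((hol_const 1).sub hol_S)) ((hol_const 1).add hol_S) h h1,
    D_mul hol_S ((hol_const 1).sub hol_S) h, D_sub (hol_const 1) hol_S h,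
    D_add (hol_const 1) hol_S h, D_const, D_S' h]
  field_simp
  ring

lemma DD_gin {z : ℂ} (h : ‖z‖ < 1) : D (D gin) z =
    - (D pin z) * kap z ^ 2 - pin z * (2 * kap z * D kap z) := by
  have h1 : D (D gin) z = D (fun z => - (pin z * kap z ^ 2)) z :=
    D_congr (fun w hw => by rw [D_gin hw]; simp only [pin]; ring) h
  rw [h1, D_neg, D_mul hol_pin (hol_kap.pow 2) h, D_sq hol_kap h]
  ring

/-- the defect of the `K`-equation -/
noncomputable def dfc (z : ℂ) : ℂ := D (D kin) z + S z ^ 2 * (1 - S z ^ 2) * kap z ^ 3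

lemma hol_dfc : Hol dfc :=
  hol_kin.Dz.Dz.add (((hol_S.pow 2).mul ((hol_const 1).sub (hol_S.pow 2))).mul (hol_kap.pow 3))

lemma DD_prod {f g : ℂ → ℂ} (hf : Hol f) (hg : Hol g) {z : ℂ} (h : ‖z‖ < 1) :
    D (D fun z => f z * g z) z = D (D f) z * g z + 2 * (D f z * D g z) + f z * D (D g) z := by
  have h1 : D (D fun z => f z * g z) z = D (fun z => D f z * g z + f z * D g z) z :=
    D_congr (fun w hw => D_mul hf hg hw) h
  rw [h1, D_add (hf.Dz.mul hg) (hf.mul hg.Dz) h, D_mul hf.Dz hg h, D_mul hf hg.Dz h]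
  ring

lemma DD_comp_sq {f : ℂ → ℂ} (hf : Hol f) {z : ℂ} (h : ‖z‖ < 1) :
    D (D fun z => f (z ^ 2)) z = 4 * D (D f) (z ^ 2) := by
  have h1 : D (D fun z => f (z ^ 2)) z = D (fun z => 2 * D f (z ^ 2)) z :=
    D_congr (fun w hw => D_comp_sq hf hw) h
  rw [h1, D_const_mul hf.Dz.comp_sq 2 h, D_comp_sq hf.Dz h]
  ring

lemma dfc_double {z : ℂ} (h : ‖z‖ < 1) : dfc z = 4 / (1 + S (z ^ 2)) * dfc (z ^ 2) := by
  have hw := norm_sq_lt h
  have h1 : D (D kin) z = D (D fun z => kin (z ^ 2) * gin (z ^ 2)) z :=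
    D_congr (fun w hw => D_congr (fun v hv => kin_double hv) hw) h
  have h2 : D (D fun z => kin (z ^ 2) * gin (z ^ 2)) z
      = 4 * D (D fun z => kin z * gin z) (z ^ 2) :=
    DD_comp_sq (f := fun z => kin z * gin z) (hol_kin.mul hol_gin) h
  have h3 := S_sq_double h
  have h4 := one_add_S_sq_ne h
  have h5 := kap_double h
  have h6 := kin_mul hw
  simp only [dfc]
  rw [h1, h2, DD_prod hol_kin hol_gin hw, DD_gin hw, D_kin hw, D_gin hw, D_pin hw, h5]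
  have h7 : S z ^ 2 = 4 * S (z ^ 2) / (1 + S (z ^ 2)) ^ 2 := by
    rw [eq_div_iff (pow_ne_zero 2 h4)]
    linear_combination h3
  rw [h7]
  simp only [pin, gin]
  have h8 : kin (z ^ 2) = 1 / kap (z ^ 2) := by rw [kin, one_div]
  have h9 := kap_ne hw
  rw [h8]
  field_simp
  ring

/-- the `K`-equation in the uniformising coordinate -/
theorem DD_kin {z : ℂ} (h : ‖z‖ < 1) : D (D kin) z = - (S z ^ 2 * (1 - S z ^ 2) * kap z ^ 3) := by
  have hc : ContinuousAt (fun z => 4 / (1 + S (z ^ 2))) 0 := by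
    have h5 : Hol fun z => 4 / (1 + S (z ^ 2)) :=
      (hol_const 4).div ((hol_const 1).add hol_S.comp_sq) fun _ hz => one_add_S_sq_ne hz
    exact (h5.at (by simp)).continuousAt
  have h3 := hol_dfc.zero_of_iter hc (by simp [dfc]) (fun z hz => dfc_double hz) h
  simp only [dfc] at h3
  linear_combination h3

end Vale.Agent.P030.H810
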