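import Vale.Agent.P030.H810.Ser
import Vale.Agent.P030.H810.Unif

/-!
P030, function layer, file 5: the ring `Ext` of all power series in the local parameter `t` which,
pulled back by the uniformisation `t = S z`, are holomorphic in the whole unit disc.  It is closed
under differentiation, integration and solution of the (inhomogeneous) equation of `K`.
-/

open PowerSeries Filter Topology Complex Metric

namespace Vale.Agent.P030.H810

lemma eventually_disc : ∀ᶠ z in 𝓝 (0 : ℂ), ‖z‖ < 1 := by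
  filter_upwards [isOpen_ball.mem_nhds (mem_disc.mpr (show ‖(0 : ℂ)‖ < 1 by simp))] with w hw
  exact mem_disc.mp hw

lemma hS_zero : hS 0 = 4 := by
  have h0 : (0 : ℂ) ^ 2 = 0 := by norm_num
  simp only [hS, h0, A_zero, C_zero]
  norm_num

lemma deriv_S {z : ℂ} (hz : ‖z‖ < 1) : deriv S z = hS z * R z := by
  rcases eq_or_ne z 0 with rfl | hne
  · have h1 : HasDerivAt (fun z : ℂ => z * hS z) (1 * hS 0 + 0 * deriv hS 0) 0 :=
      (hasDerivAt_id (0 : ℂ)).mul (hol_hS.at (by simp)).hasDerivAt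
    have h2 : deriv S 0 = 1 * hS 0 + 0 * deriv hS 0 := h1.deriv
    rw [h2, R_zero]
    ring
  · have h1 := D_S hz
    rw [D, S_eq] at h1
    have h2 : z * deriv S z = z * (hS z * R z) := by rw [h1]; ring
    exact mul_left_cancel₀ hne h2

lemma deriv_S_ne {z : ℂ} (hz : ‖z‖ < 1) : deriv S z ≠ 0 := by
  rw [deriv_S hz]
  exact mul_ne_zero (hS_ne hz) (R_ne hz)

lemma deriv_S_zero : deriv S 0 = 4 := by
  rw [deriv_S (by simp), hS_zero, R_zero]
  norm_num

lemma chartS : Chart S 0 := ⟨hol_S.analyticAt (by simp), S_zero, deriv_S_ne (by simp)⟩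

/-- power series in the local parameter `t = S z` which are holomorphic on the disc -/
def Ext (p : ℂ⟦X⟧) : Prop := ∃ F, Hol F ∧ Ser S 0 p F

lemma Ext.const (c : ℂ) : Ext (PowerSeries.C c) := ⟨_, hol_const c, Ser.const c⟩

lemma Ext.one : Ext 1 := ⟨_, hol_const 1, Ser.one⟩

lemma Ext.zero : Ext 0 := ⟨_, hol_const 0, Ser.zero⟩

lemma Ext.X : Ext PowerSeries.X := ⟨_, hol_S, Ser.X⟩

lemma Ext.add {p q : ℂ⟦X⟧} (hp : Ext p) (hq : Ext q) : Ext (p + q) := by
  obtain ⟨F, hF, h1⟩ := hp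
  obtain ⟨G, hG, h2⟩ := hq
  exact ⟨_, hF.add hG, h1.add h2⟩

lemma Ext.mul {p q : ℂ⟦X⟧} (hp : Ext p) (hq : Ext q) : Ext (p * q) := by
  obtain ⟨F, hF, h1⟩ := hp
  obtain ⟨G, hG, h2⟩ := hq
  exact ⟨_, hF.mul hG, h1.mul h2⟩

lemma Ext.neg {p : ℂ⟦X⟧} (hp : Ext p) : Ext (-p) := by
  obtain ⟨F, hF, h1⟩ := hp
  exact ⟨_, hF.neg, h1.neg⟩

lemma Ext.sub {p q : ℂ⟦X⟧} (hp : Ext p) (hq : Ext q) : Ext (p - q) := by
  obtain ⟨F, hF, h1⟩ := hp
  obtain ⟨G, hG, h2⟩ := hq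
  exact ⟨_, hF.sub hG, h1.sub h2⟩

lemma Ext.pow {p : ℂ⟦X⟧} (hp : Ext p) (n : ℕ) : Ext (p ^ n) := by
  obtain ⟨F, hF, h1⟩ := hp
  exact ⟨_, hF.pow n, h1.pow n⟩

/-- the inverse of a series without zeros on the disc -/
lemma ser_inv {h : ℂ → ℂ} {z0 : ℂ} (H : Chart h z0) {p q : ℂ⟦X⟧} {F : ℂ → ℂ}
    (h1 : Ser h z0 p F) (hpq : p * q = 1) : Ser h z0 q fun z => (F z)⁻¹ := by
  have h0 : F z0 ≠ 0 := by
    rw [h1.value H]
    intro h0
    have h2 := congrArg (constantCoeff (R := ℂ)) hpq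
    rw [map_mul, map_one, ← coeff_zero_eq_constantCoeff_apply, h0, zero_mul] at h2
    exact zero_ne_one h2
  obtain ⟨r, hr⟩ := exists_Ser H ((h1.analyticAt H).inv h0)
  have h2 : Ser h z0 (p * r) fun z => 1 := by
    refine (h1.mul hr).congr ?_
    filter_upwards [(h1.analyticAt H).continuousAt.eventually_ne h0] with z hz
    exact mul_inv_cancel₀ hz
  have h3 : p * r = 1 := h2.unique H Ser.one
  have h4 : r = q := by
    calc r = (p * q) * r := by rw [hpq, one_mul]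
      _ = (p * r) * q := by ring
      _ = q := by rw [h3, one_mul]
  rwa [h4] at hr

lemma geoC_mul : (1 - PowerSeries.X) * (PowerSeries.mk fun _ => (1 : ℂ)) = 1 := by
  ext n
  rw [sub_mul, one_mul, map_sub]
  rcases n with _ | n
  · simp
  · rw [coeff_succ_X_mul]
    simp [coeff_one]

lemma geoaC_mul : (1 + PowerSeries.X) * (PowerSeries.mk fun n => (-1 : ℂ) ^ n) = 1 := by
  ext n
  rw [add_mul, one_mul, map_add]
  rcases n with _ | n
  · simp
  · rw [coeff_succ_X_mul]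
    simp [coeff_one, pow_succ]

lemma Ext.of_mul_one_sub {p q : ℂ⟦X⟧} (hp : Ext p) (h : (1 - PowerSeries.X) * q = p) : Ext q := by
  have h1 : Ext (PowerSeries.mk fun _ => (1 : ℂ)) :=
    ⟨_, ((hol_const 1).sub hol_S).inv fun z hz => one_sub_S_ne hz,
      ser_inv chartS (Ser.one.sub Ser.X) geoC_mul⟩
  have h2 : q = (PowerSeries.mk fun _ => (1 : ℂ)) * p := by
    rw [← h, ← mul_assoc, mul_comm (PowerSeries.mk fun _ => (1 : ℂ)), geoC_mul, one_mul]
  rw [h2]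
  exact h1.mul hp

lemma Ext.of_mul_one_add {p q : ℂ⟦X⟧} (hp : Ext p) (h : (1 + PowerSeries.X) * q = p) : Ext q := by
  have h1 : Ext (PowerSeries.mk fun n => (-1 : ℂ) ^ n) :=
    ⟨_, ((hol_const 1).add hol_S).inv fun z hz => one_add_S_ne hz,
      ser_inv chartS (Ser.one.add Ser.X) geoaC_mul⟩
  have h2 : q = (PowerSeries.mk fun n => (-1 : ℂ) ^ n) * p := by
    rw [← h, ← mul_assoc, mul_comm (PowerSeries.mk fun n => (-1 : ℂ) ^ n), geoaC_mul, one_mul]
  rw [h2]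
  exact h1.mul hp

/-- closed under differentiation -/
lemma Ext.deriv {p : ℂ⟦X⟧} (hp : Ext p) : Ext (d⁄dX ℂ p) := by
  obtain ⟨F, hF, h1⟩ := hp
  refine ⟨fun z => _root_.deriv F z / (hS z * R z),
    hF.der.div (hol_hS.mul hol_R) fun z hz => mul_ne_zero (hS_ne hz) (R_ne hz),
    h1.derivative chartS ?_⟩
  filter_upwards [eventually_disc] with z hz
  rw [deriv_S hz]
  have := mul_ne_zero (hS_ne hz) (R_ne hz)
  rw [mul_comm, div_mul_cancel₀ _ this]

/-- closed under integration -/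
lemma Ext.integral {p : ℂ⟦X⟧} (hp : Ext (d⁄dX ℂ p)) : Ext p := by
  obtain ⟨G, hG, h1⟩ := hp
  have h2 : Hol fun z => _root_.deriv S z * G z := hol_S.der.mul hG
  obtain ⟨F, hF0, hF⟩ := (DifferentiableOn.isExactOn_ball h2).with_val_at 0 (coeff 0 p)
  have hFH : Hol F := fun z hz => (hF z hz).differentiableAt.differentiableWithinAt
  refine ⟨F, hFH, h1.integral chartS (hFH.analyticAt (by simp)) hF0 ?_⟩
  filter_upwards [eventually_disc] with z hz
  exact (hF z (mem_disc.mpr hz)).deriv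

/-- `t d/dt` -/
noncomputable def tC (p : ℂ⟦X⟧) : ℂ⟦X⟧ := PowerSeries.X * d⁄dX ℂ p

lemma Ext.tC {p : ℂ⟦X⟧} (hp : Ext p) : Ext (tC p) := Ext.X.mul hp.deriv

lemma coeff_tC (p : ℂ⟦X⟧) (n : ℕ) : coeff n (tC p) = n * coeff n p := by
  rcases n with _ | n
  · simp [H810.tC]
  · rw [H810.tC, coeff_succ_X_mul, coeff_derivative]
    push_cast
    ring

lemma ser_tC {p : ℂ⟦X⟧} {F : ℂ → ℂ} (hF : Hol F) (h : Ser S 0 p F) :
    Ser S 0 (tC p) fun z => D F z / R z := by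
  have h1 : Ser S 0 (d⁄dX ℂ p) fun z => _root_.deriv F z / (hS z * R z) := by
    refine h.derivative chartS ?_
    filter_upwards [eventually_disc] with z hz
    rw [deriv_S hz]
    have := mul_ne_zero (hS_ne hz) (R_ne hz)
    rw [mul_comm, div_mul_cancel₀ _ this]
  refine (Ser.X.mul h1).congr ?_
  filter_upwards [eventually_disc] with z hz
  have h2 := hS_ne hz
  have h3 := R_ne hz
  rw [S_eq, D]
  field_simp

/-- the operator of the equation of `K` -/
noncomputable def opK (q : ℂ⟦X⟧) : ℂ⟦X⟧ :=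
  (1 - PowerSeries.X ^ 2) * tC (tC q) - 2 * (PowerSeries.X ^ 2 * tC q) - PowerSeries.X ^ 2 * q

/-- the differential equation, pulled back -/
theorem ser_opK {q : ℂ⟦X⟧} {Φ : ℂ → ℂ} (hΦ : Hol Φ)
    (hq : Ser S 0 q fun z => kap z * Φ z) :
    Ser S 0 (opK q) fun z => D (D Φ) z / (R z * kap z) := by
  set y : ℂ → ℂ := fun z => kap z * Φ z with hy
  have hyH : Hol y := hol_kap.mul hΦ
  set y1 : ℂ → ℂ := fun z => D y z / R z with hy1
  have hy1H : Hol y1 := hyH.Dz.div hol_R fun z hz => R_ne hz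
  set y2 : ℂ → ℂ := fun z => D y1 z / R z with hy2
  have s1 : Ser S 0 (tC q) y1 := ser_tC hyH hq
  have s2 : Ser S 0 (tC (tC q)) y2 := ser_tC hy1H s1
  have h2 : Ser S 0 (2 : ℂ⟦X⟧) fun _ => 2 := by
    have := Ser.const (h := S) (z0 := 0) 2
    rwa [map_ofNat] at this
  have s3 := (((Ser.one.sub (Ser.X.pow 2)).mul s2).sub (h2.mul ((Ser.X.pow 2).mul s1))).sub
    ((Ser.X.pow 2).mul hq)
  refine s3.congr ?_
  filter_upwards [eventually_disc] with z hz
  -- the identity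
  have hu : ∀ w, ‖w‖ < 1 → (1 - S w ^ 2) * y1 w = kin w * D Φ w - D kin w * Φ w := by
    intro w hw
    have e1 : D y w = D kap w * Φ w + kap w * D Φ w := D_mul hol_kap hΦ hw
    have e2 := D_kin hw
    have e3 := kin_mul hw
    have e4 := R_eq hw
    have e5 := R_ne hw
    have e6 := kap_ne hw
    have e7 : 1 - S w ^ 2 ≠ 0 := one_sub_S_sq_ne hw
    have e8 : kin w = (kap w)⁻¹ := rfl
    simp only [hy1]
    rw [e1, e2, e8, e4]
    field_simp
    ring
  have hL := D_congr hu hz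
  have e1 : D (fun w => (1 - S w ^ 2) * y1 w) z
      = (D (fun w => 1 - S w ^ 2) z) * y1 z + (1 - S z ^ 2) * D y1 z :=
    D_mul ((hol_const 1).sub (hol_S.pow 2)) hy1H hz
  have e2 : D (fun w => 1 - S w ^ 2) z = - (2 * S z * (S z * R z)) := by
    rw [D_sub (hol_const 1) (hol_S.pow 2) hz, D_const, D_sq hol_S hz, D_S hz]
    ring
  have e3 : D (fun w => kin w * D Φ w - D kin w * Φ w) z
      = kin z * D (D Φ) z - D (D kin) z * Φ z := by
    rw [D_sub (hol_kin.mul hΦ.Dz) (hol_kin.Dz.mul hΦ) hz, D_mul hol_kin hΦ.Dz hz,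
      D_mul hol_kin.Dz hΦ hz]
    ring
  rw [e1, e2, e3, DD_kin hz] at hL
  have e4 := R_eq hz
  have e5 := R_ne hz
  have e6 := kap_ne hz
  have e7 : D y1 z = R z * y2 z := by
    simp only [hy2]
    field_simp
  rw [e7] at hL
  have e8 : kin z = (kap z)⁻¹ := rfl
  have e9 : D (D Φ) z = kap z * (R z * ((1 - S z ^ 2) * y2 z - 2 * (S z ^ 2 * y1 z))
      - (S z ^ 2 * (1 - S z ^ 2) * kap z ^ 3) * Φ z) := by
    have : kin z * D (D Φ) z = R z * ((1 - S z ^ 2) * y2 z - 2 * (S z ^ 2 * y1 z))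
      - (S z ^ 2 * (1 - S z ^ 2) * kap z ^ 3) * Φ z := by
      linear_combination -hL
    rw [← this, e8]
    field_simp
  show (1 - S z ^ 2) * y2 z - 2 * (S z ^ 2 * y1 z) - S z ^ 2 * (kap z * Φ z)
    = D (D Φ) z / (R z * kap z)
  rw [eq_div_iff (mul_ne_zero e5 e6), e9]
  linear_combination (-(S z ^ 2 * kap z ^ 2 * Φ z)) * e4

lemma opK_coeff (q : ℂ⟦X⟧) (n : ℕ) : coeff (n + 2) (opK q)
    = ((n : ℂ) + 2) ^ 2 * coeff (n + 2) q - ((n : ℂ) + 1) ^ 2 * coeff n q := by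
  have h1 : ∀ f : ℂ⟦X⟧, coeff (n + 2) (PowerSeries.X ^ 2 * f) = coeff n f := fun f => by
    exact coeff_X_pow_mul f 2 n
  have h2 : (2 : ℂ⟦X⟧) = PowerSeries.C (2 : ℂ) := (map_ofNat _ 2).symm
  rw [opK, sub_mul, one_mul, map_sub, map_sub, map_sub, h1, h1, h2, coeff_C_mul, h1]
  simp only [coeff_tC]
  push_cast
  ring

lemma opK_coeff_zero (q : ℂ⟦X⟧) : coeff 0 (opK q) = 0 := by
  have h1 : ∀ f : ℂ⟦X⟧, coeff 0 (PowerSeries.X ^ 2 * f) = 0 := fun f => by
    simp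
  have h2 : (2 : ℂ⟦X⟧) = PowerSeries.C (2 : ℂ) := (map_ofNat _ 2).symm
  rw [opK, sub_mul, one_mul, map_sub, map_sub, map_sub, h1, h1, h2, coeff_C_mul, h1]
  simp only [coeff_tC]
  push_cast
  ring

lemma opK_coeff_one (q : ℂ⟦X⟧) : coeff 1 (opK q) = coeff 1 q := by
  have h1 : ∀ f : ℂ⟦X⟧, coeff 1 (PowerSeries.X ^ 2 * f) = 0 := fun f => by
    rw [pow_two, mul_assoc, show (1 : ℕ) = 0 + 1 from rfl, coeff_succ_X_mul]
    simp
  have h2 : (2 : ℂ⟦X⟧) = PowerSeries.C (2 : ℂ) := (map_ofNat _ 2).symm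
  rw [opK, sub_mul, one_mul, map_sub, map_sub, map_sub, h1, h1, h2, coeff_C_mul, h1]
  simp only [coeff_tC]
  push_cast
  ring

lemma opK_inj {p q : ℂ⟦X⟧} (h : opK p = opK q) (h0 : coeff 0 p = coeff 0 q) : p = q := by
  have key : ∀ n, coeff n p = coeff n q ∧ coeff (n + 1) p = coeff (n + 1) q := by
    intro n
    induction n with
    | zero =>
      refine ⟨h0, ?_⟩
      rw [zero_add, ← opK_coeff_one p, ← opK_coeff_one q, h]
    | succ n ih =>
      refine ⟨ih.2, ?_⟩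
      have h1 := opK_coeff p n
      have h2 := opK_coeff q n
      rw [h, h2, ih.1] at h1
      have h3 : ((n : ℂ) + 2) ^ 2 ≠ 0 := by
        apply pow_ne_zero
        exact_mod_cast Nat.succ_ne_zero (n + 1)
      have h4 : ((n : ℂ) + 2) ^ 2 * coeff (n + 2) p = ((n : ℂ) + 2) ^ 2 * coeff (n + 2) q := by
        linear_combination -h1
      exact mul_left_cancel₀ h3 h4
  ext n
  exact (key n).1

/-- closed under the solution of the inhomogeneous equation of `K` (explicit form) -/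
theorem ser_of_opK {q c : ℂ⟦X⟧} {Cc Φ : ℂ → ℂ} (hc : Ser S 0 c Cc) (hΦ : Hol Φ)
    (h0 : Φ 0 = coeff 0 q) (hD : ∀ z, ‖z‖ < 1 → D (D Φ) z = R z * kap z * Cc z)
    (ho : opK q = c) : Ser S 0 q fun z => kap z * Φ z := by
  have hyH : Hol fun z => kap z * Φ z := hol_kap.mul hΦ
  obtain ⟨r, hr⟩ := exists_Ser chartS (hyH.analyticAt (z := 0) (by simp))
  have h1 := ser_opK hΦ hr
  have h2 : Ser S 0 (opK r) Cc := by
    refine h1.congr ?_
    filter_upwards [eventually_disc] with z hz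
    rw [hD z hz]
    have e5 := R_ne hz
    have e6 := kap_ne hz
    field_simp
  have h3 : opK r = opK q := by rw [ho]; exact h2.unique chartS hc
  have h4 : coeff 0 r = coeff 0 q := by
    rw [← h0, ← hr.value chartS, kap_zero, one_mul]
  rwa [opK_inj h3 h4] at hr

/-- closed under the solution of the inhomogeneous equation of `K` -/
theorem Ext.of_opK {q : ℂ⟦X⟧} (h : Ext (opK q)) : Ext q := by
  obtain ⟨Cc, hC, hc⟩ := h
  have hC0 : Cc 0 = 0 := by rw [hc.value chartS, opK_coeff_zero]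
  obtain ⟨Φ1, hΦ1, hΦ10, hΦ1D⟩ := exists_D_primitive ((hol_R.mul hol_kap).mul hC)
    (by rw [hC0, mul_zero]) 0
  obtain ⟨Φ, hΦ, hΦ0, hΦD⟩ := exists_D_primitive hΦ1 hΦ10 (coeff 0 q)
  refine ⟨_, hol_kap.mul hΦ, ser_of_opK hc hΦ hΦ0 (fun z hz => ?_) rfl⟩
  rw [D_congr hΦD hz, hΦ1D z hz]

end Vale.Agent.P030.H810
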