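import Vale.Agent.P030.H810.Ext
import Vale.Agent.P030.H605.Ser

/-!
P030, function layer, file 6: all series of the table `T/Defs.lean` are holomorphic in the unit
disc of the uniformisation `t = S z`.
-/

open PowerSeries Filter Topology Complex Metric

namespace Vale.Agent.P030.H810

open Vale.Agent.P030.T Vale.Agent.P030.H605

/-- complexification of a rational series -/
noncomputable abbrev cm : ℚ⟦X⟧ →+* ℂ⟦X⟧ := PowerSeries.map (algebraMap ℚ ℂ)

lemma cm_C (q : ℚ) : cm (PowerSeries.C q) = PowerSeries.C (q : ℂ) := by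
  simp [cm]

lemma cm_X : cm PowerSeries.X = PowerSeries.X := by simp [cm]

lemma coeff_cm (n : ℕ) (p : ℚ⟦X⟧) : coeff n (cm p) = ((coeff n p : ℚ) : ℂ) := by
  simp [cm]

lemma cm_d (p : ℚ⟦X⟧) : cm (d⁄dX ℚ p) = d⁄dX ℂ (cm p) := by
  ext n
  rw [coeff_cm, coeff_derivative, coeff_derivative, coeff_cm]
  push_cast
  ring

lemma cm_th (p : ℚ⟦X⟧) : cm (th p) = tC (cm p) := by
  rw [th_eq, map_mul, cm_X, cm_d, tC]

/-- rational power series in the local parameter which are holomorphic on the disc -/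
def ExtQ (p : ℚ⟦X⟧) : Prop := Ext (cm p)

namespace ExtQ

lemma const (c : ℚ) : ExtQ (PowerSeries.C c) := by
  rw [ExtQ, cm_C]
  exact Ext.const _

lemma one : ExtQ 1 := by
  rw [ExtQ, map_one]
  exact Ext.one

lemma zero : ExtQ 0 := by
  rw [ExtQ, map_zero]
  exact Ext.zero

lemma X : ExtQ PowerSeries.X := by
  rw [ExtQ, cm_X]
  exact Ext.X

lemma add {p q : ℚ⟦X⟧} (hp : ExtQ p) (hq : ExtQ q) : ExtQ (p + q) := by
  rw [ExtQ, map_add]
  exact Ext.add hp hq

lemma mul {p q : ℚ⟦X⟧} (hp : ExtQ p) (hq : ExtQ q) : ExtQ (p * q) := by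
  rw [ExtQ, map_mul]
  exact Ext.mul hp hq

lemma sub {p q : ℚ⟦X⟧} (hp : ExtQ p) (hq : ExtQ q) : ExtQ (p - q) := by
  rw [ExtQ, map_sub]
  exact Ext.sub hp hq

lemma neg {p : ℚ⟦X⟧} (hp : ExtQ p) : ExtQ (-p) := by
  rw [ExtQ, map_neg]
  exact Ext.neg hp

lemma pow {p : ℚ⟦X⟧} (hp : ExtQ p) (n : ℕ) : ExtQ (p ^ n) := by
  rw [ExtQ, map_pow]
  exact Ext.pow hp n

lemma sc {p : ℚ⟦X⟧} (hp : ExtQ p) (c : ℚ) : ExtQ (sc c p) := (const c).mul hp

lemma dd {p : ℚ⟦X⟧} (hp : ExtQ p) : ExtQ (dd p) := by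
  rw [ExtQ, dd_eq, cm_d]
  exact Ext.deriv hp

lemma th {p : ℚ⟦X⟧} (hp : ExtQ p) : ExtQ (th p) := by
  rw [ExtQ, cm_th]
  exact Ext.tC hp

lemma of_d {p : ℚ⟦X⟧} (hp : ExtQ (d⁄dX ℚ p)) : ExtQ p := by
  rw [ExtQ, cm_d] at hp
  exact Ext.integral hp

lemma integ {p : ℚ⟦X⟧} (hp : ExtQ p) : ExtQ (integ p) := by
  apply of_d
  rw [D_integ]
  exact hp

lemma of_one_sub {p q : ℚ⟦X⟧} (hp : ExtQ p) (h : (1 - PowerSeries.X) * q = p) : ExtQ q := by
  refine Ext.of_mul_one_sub hp ?_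
  have := congrArg cm h
  rwa [map_mul, map_sub, map_one, cm_X] at this

lemma of_one_add {p q : ℚ⟦X⟧} (hp : ExtQ p) (h : (1 + PowerSeries.X) * q = p) : ExtQ q := by
  refine Ext.of_mul_one_add hp ?_
  have := congrArg cm h
  rwa [map_mul, map_add, map_one, cm_X] at this

lemma geo : ExtQ geo := one.of_one_sub geo_mul

lemma geoa : ExtQ geoa := one.of_one_add geoa_mul

lemma geo2 : ExtQ geo2 := by
  refine geoa.of_one_sub (q := T.geo2) ?_
  have h1 := geo2_mul
  have h2 := geoa_mul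
  calc (1 - PowerSeries.X) * T.geo2 = ((1 + PowerSeries.X) * T.geoa) * ((1 - PowerSeries.X) * T.geo2) := by
        rw [h2, one_mul]
    _ = T.geoa * ((1 - PowerSeries.X ^ 2) * T.geo2) := by ring
    _ = T.geoa := by rw [h1, mul_one]

lemma lgm : ExtQ lgm := of_d (one.of_one_sub D_lgm)

lemma lgp : ExtQ lgp := of_d (one.of_one_add D_lgp)

end ExtQ

/-- operator of the equation of `K` over `ℚ` -/
noncomputable def opQ (q : ℚ⟦X⟧) : ℚ⟦X⟧ :=
  (1 - PowerSeries.X ^ 2) * th (th q) - 2 * (PowerSeries.X ^ 2 * th q) - PowerSeries.X ^ 2 * q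

lemma cm_opQ (q : ℚ⟦X⟧) : cm (opQ q) = opK (cm q) := by
  simp only [opQ, opK, map_sub, map_mul, map_pow, map_one, cm_X, cm_th, map_ofNat]

lemma ExtQ.of_opQ {q : ℚ⟦X⟧} (h : ExtQ (opQ q)) : ExtQ q := by
  rw [ExtQ, cm_opQ] at h
  exact Ext.of_opK h

lemma C_two : (PowerSeries.C (2 : ℚ)) = (2 : ℚ⟦X⟧) := map_ofNat _ 2

lemma opQ_K : opQ serK = 0 := by
  have := K_ode
  rw [C_two] at this
  rw [opQ]
  linear_combination this

lemma opQ_B : (1 - PowerSeries.X) * opQ serB = - (PowerSeries.C (1 / 4) * PowerSeries.X) := by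
  have := B_ode
  rw [C_two] at this
  rw [opQ]
  linear_combination this

lemma opQ_B2 : opQ serB2 = - (PowerSeries.C (1 / 4) * PowerSeries.X) := by
  have := B2_ode
  rw [C_two] at this
  rw [opQ]
  linear_combination this

lemma opQ_M : opQ serM = 2 * (PowerSeries.X ^ 2 * th serK) + 2 * (PowerSeries.X ^ 2 * serK)
    - 2 * th serK := by
  have := M_ode
  rw [C_two] at this
  rw [opQ]
  linear_combination this

namespace ExtQ

lemma two : ExtQ 2 := by
  rw [← C_two]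
  exact const 2

lemma serK : ExtQ serK := of_opQ (by rw [opQ_K]; exact zero)

lemma serB : ExtQ serB := of_opQ (((const _).mul X).neg.of_one_sub opQ_B)

lemma serB2 : ExtQ serB2 := of_opQ (by rw [opQ_B2]; exact ((const _).mul X).neg)

lemma serM : ExtQ serM := of_opQ (by
  rw [opQ_M]
  exact ((two.mul ((X.pow 2).mul serK.th)).add (two.mul ((X.pow 2).mul serK))).sub
    (two.mul serK.th))

lemma tw {p : ℚ⟦X⟧} (hp : ExtQ p) : ExtQ (tw p) :=
  ((one.add X).mul ((one.sub X).mul hp).dd).sc _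

/-- the series `lgm / X` -/
lemma quotX {p q : ℚ⟦X⟧} (hp : ExtQ p) (h : PowerSeries.X * q = p) : ExtQ q := by
  obtain ⟨F, hF, h1⟩ := hp
  have h0 : F 0 = 0 := by
    rw [h1.value chartS, coeff_cm, ← h, coeff_zero_X_mul]
    simp
  -- `F z = z * G z`
  have h2 : DifferentiableOn ℂ (dslope F 0) (ball 0 1) :=
    (differentiableOn_dslope (isOpen_ball.mem_nhds (by simp))).mpr hF
  have h3 : Hol fun z => dslope F 0 z / hS z := Hol.div h2 hol_hS fun z hz => hS_ne hz
  refine ⟨_, h3, ?_⟩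
  obtain ⟨r, hr⟩ := exists_Ser chartS (h3.analyticAt (z := 0) (by simp))
  have h4 : Ser S 0 (PowerSeries.X * r) F := by
    refine (Ser.X.mul hr).congr ?_
    filter_upwards [eventually_disc] with z hz
    have h5 := sub_smul_dslope F 0 z
    rw [h0, sub_zero, sub_zero, smul_eq_mul] at h5
    have h6 := hS_ne hz
    show S z * (dslope F 0 z / hS z) = F z
    rw [S_eq, ← h5]
    field_simp
  have h5 : PowerSeries.X * r = PowerSeries.X * cm q := by
    rw [h4.unique chartS h1, ← h, map_mul, cm_X]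
  have h6 : r = cm q := by
    ext n
    have h7 := congrArg (coeff (n + 1)) h5
    rwa [coeff_succ_X_mul, coeff_succ_X_mul] at h7
  rwa [h6] at hr

lemma li2 : ExtQ li2 := of_d (lgm.quotX D_li2)

end ExtQ

lemma extQ_vec {a0 a1 a2 a3 a4 a5 a6 a7 : ℚ⟦X⟧} (h0 : ExtQ a0) (h1 : ExtQ a1) (h2 : ExtQ a2)
    (h3 : ExtQ a3) (h4 : ExtQ a4) (h5 : ExtQ a5) (h6 : ExtQ a6) (h7 : ExtQ a7) (j : Fin 8) :
    ExtQ (![a0, a1, a2, a3, a4, a5, a6, a7] j) := by
  fin_cases j
  · exact h0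
  · exact h1
  · exact h2
  · exact h3
  · exact h4
  · exact h5
  · exact h6
  · exact h7

open ExtQ in
/-- **all series of the table are holomorphic in the disc** -/
theorem extQ_tup0 (g : Gp) (j : Fin 8) : ExtQ (tup0 g j) := by
  have o := ExtQ.one
  have z := ExtQ.zero
  have x := ExtQ.X
  have a := ExtQ.lgm
  have b := ExtQ.lgp
  have K := ExtQ.serK
  have n : ExtQ (1 - PowerSeries.X) := o.sub x
  cases g
  · exact extQ_vec o z a li2 (geoa.mul a).integ ((a.pow 2).sc _) (n.mul serB) (n.mul serB.th) j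
  · exact extQ_vec z o z z ((a.sc _).add b) (a.sc _) z z j
  · exact extQ_vec z z z z z z (n.mul K) (n.mul K.th) j
  · exact extQ_vec z z z o z z z z j
  · exact extQ_vec o z a.neg ((geo2.mul a).integ.sc _).neg (li2.neg.sub ((a.pow 2).sc _))
      ((a.pow 2).sc _) serB2 serB2.tw j
  · exact extQ_vec z o o.neg (b.add a).neg (a.sc _).neg (a.sc _) z z j
  · exact extQ_vec z z z (const _).neg (const _).neg z K.neg K.tw.neg j
  · exact extQ_vec z z z z z z K K.tw j
  · exact extQ_vec z z z o z z z z j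
  · exact extQ_vec z z z z z o z z j
  · exact extQ_vec z z z o.neg o.neg o z z j
  · exact extQ_vec z z z z o.neg o z z j
  · exact extQ_vec z z z z z z (n.mul K).neg (n.mul (x.mul K).dd) j
  · exact extQ_vec z z o z b a z z j
  · exact extQ_vec z z z z z (const _) ((x.mul K).sc _) ((x.mul K.tw).sc _) j
  · exact extQ_vec z z z z o.neg o (x.mul K).neg (x.mul K.tw).neg j
  · exact extQ_vec z z o.neg (b.add a).neg a.neg a ((x.mul serM).sc _)
      (((x.mul serM.tw).add (((o.sub (x.pow 2)).mul K).sc _)).sc _) j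

theorem extQ_tup1 (g : Gp) (j : Fin 8) : ExtQ (tup1 g j) := by
  have z := ExtQ.zero
  have n : ExtQ (1 - PowerSeries.X) := ExtQ.one.sub ExtQ.X
  cases g
  · exact extQ_vec z z z z z z (n.mul ExtQ.serK).neg (n.mul ExtQ.serK.th).neg j
  all_goals exact z

theorem extQ_mon (D : ℕ) (c : Fin 4) (i : ℕ) : ExtQ (mon D c i) := by
  have o := ExtQ.one
  have x := ExtQ.X
  fin_cases c
  · exact (x.pow _).mul (ExtQ.geo.pow _)
  · exact (((o.add x).pow _).mul ((o.sub x).pow _)).sc _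
  · exact ((x.pow _).mul (ExtQ.geo.pow _)).sc _
  · exact (((o.add x).pow _).mul ((o.sub x).pow _)).sc _

end Vale.Agent.P030.H810
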