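import Vale.Agent.P030.H810.Theta

/-!
P030, function layer, file 2: calculus of `D = z d/dz` on holomorphic functions of the unit disc,
primitives, and the iteration lemma `e(z) = c(z) e(z^2), e(0) = 0 ==> e = 0`.
-/

namespace Vale.Agent.P030.H810

open Complex Metric Set Filter Topology

/-- holomorphic on the open unit disc -/
def Hol (f : ℂ → ℂ) : Prop := DifferentiableOn ℂ f (ball 0 1)

/-- the derivation `z d/dz` -/
noncomputable def D (f : ℂ → ℂ) (z : ℂ) : ℂ := z * deriv f z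

lemma mem_disc {z : ℂ} : z ∈ ball (0 : ℂ) 1 ↔ ‖z‖ < 1 := by simp

lemma Hol.at {f : ℂ → ℂ} (hf : Hol f) {z : ℂ} (hz : ‖z‖ < 1) : DifferentiableAt ℂ f z :=
  DifferentiableOn.differentiableAt hf (isOpen_ball.mem_nhds (mem_disc.mpr hz))

lemma Hol.analyticAt {f : ℂ → ℂ} (hf : Hol f) {z : ℂ} (hz : ‖z‖ < 1) : AnalyticAt ℂ f z :=
  DifferentiableOn.analyticAt hf (isOpen_ball.mem_nhds (mem_disc.mpr hz))

lemma hol_of_at {f : ℂ → ℂ} (hf : ∀ z, ‖z‖ < 1 → DifferentiableAt ℂ f z) : Hol f :=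
  fun z hz => (hf z (mem_disc.mp hz)).differentiableWithinAt

lemma hol_A : Hol A := differentiableOn_A

lemma hol_C : Hol C := differentiableOn_C

lemma hol_const (c : ℂ) : Hol fun _ => c := differentiableOn_const c

lemma hol_id : Hol fun z => z := differentiableOn_id

lemma Hol.add {f g : ℂ → ℂ} (hf : Hol f) (hg : Hol g) : Hol fun z => f z + g z :=
  DifferentiableOn.add hf hg

lemma Hol.sub {f g : ℂ → ℂ} (hf : Hol f) (hg : Hol g) : Hol fun z => f z - g z :=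
  DifferentiableOn.sub hf hg

lemma Hol.neg {f : ℂ → ℂ} (hf : Hol f) : Hol fun z => - f z :=
  DifferentiableOn.neg hf

lemma Hol.mul {f g : ℂ → ℂ} (hf : Hol f) (hg : Hol g) : Hol fun z => f z * g z :=
  DifferentiableOn.mul hf hg

lemma Hol.pow {f : ℂ → ℂ} (hf : Hol f) (n : ℕ) : Hol fun z => f z ^ n :=
  DifferentiableOn.pow hf n

lemma Hol.div {f g : ℂ → ℂ} (hf : Hol f) (hg : Hol g) (h0 : ∀ z, ‖z‖ < 1 → g z ≠ 0) :
    Hol fun z => f z / g z :=
  DifferentiableOn.div hf hg fun z hz => h0 z (mem_disc.mp hz)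

lemma Hol.inv {f : ℂ → ℂ} (hf : Hol f) (h0 : ∀ z, ‖z‖ < 1 → f z ≠ 0) :
    Hol fun z => (f z)⁻¹ :=
  DifferentiableOn.inv hf fun z hz => h0 z (mem_disc.mp hz)

lemma Hol.const_mul {f : ℂ → ℂ} (hf : Hol f) (c : ℂ) : Hol fun z => c * f z :=
  (hol_const c).mul hf

lemma Hol.congr {f g : ℂ → ℂ} (hf : Hol f) (h : ∀ z, ‖z‖ < 1 → g z = f z) : Hol g :=
  DifferentiableOn.congr hf fun z hz => h z (mem_disc.mp hz)

/-- substitution `z -> z^2` -/
lemma Hol.comp_sq {f : ℂ → ℂ} (hf : Hol f) : Hol fun z => f (z ^ 2) :=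
  hol_of_at fun z hz => (hf.at (norm_sq_lt hz)).comp z (differentiableAt_id.pow 2)

/-- substitution `z -> -z` -/
lemma Hol.comp_neg {f : ℂ → ℂ} (hf : Hol f) : Hol fun z => f (-z) :=
  hol_of_at fun z hz => (hf.at (by rwa [norm_neg])).comp z differentiableAt_id.neg

lemma Hol.der {f : ℂ → ℂ} (hf : Hol f) : Hol (deriv f) :=
  DifferentiableOn.deriv hf isOpen_ball

lemma Hol.Dz {f : ℂ → ℂ} (hf : Hol f) : Hol (D f) :=
  hol_id.mul hf.der

lemma D_congr {f g : ℂ → ℂ} (h : ∀ z, ‖z‖ < 1 → f z = g z) {z : ℂ} (hz : ‖z‖ < 1) :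
    D f z = D g z := by
  have h1 : f =ᶠ[𝓝 z] g := by
    filter_upwards [isOpen_ball.mem_nhds (mem_disc.mpr hz)] with w hw
    exact h w (mem_disc.mp hw)
  simp only [D, h1.deriv_eq]

@[simp] lemma D_zero (f : ℂ → ℂ) : D f 0 = 0 := by simp [D]

lemma D_const (c : ℂ) (z : ℂ) : D (fun _ => c) z = 0 := by simp [D]

lemma D_add {f g : ℂ → ℂ} (hf : Hol f) (hg : Hol g) {z : ℂ} (hz : ‖z‖ < 1) :
    D (fun z => f z + g z) z = D f z + D g z := by
  simp only [D]
  rw [deriv_fun_add (hf.at hz) (hg.at hz)]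
  ring

lemma D_sub {f g : ℂ → ℂ} (hf : Hol f) (hg : Hol g) {z : ℂ} (hz : ‖z‖ < 1) :
    D (fun z => f z - g z) z = D f z - D g z := by
  simp only [D]
  rw [deriv_fun_sub (hf.at hz) (hg.at hz)]
  ring

lemma D_neg (f : ℂ → ℂ) (z : ℂ) : D (fun z => - f z) z = - D f z := by
  simp only [D]
  rw [deriv.fun_neg]
  ring

lemma D_mul {f g : ℂ → ℂ} (hf : Hol f) (hg : Hol g) {z : ℂ} (hz : ‖z‖ < 1) :
    D (fun z => f z * g z) z = D f z * g z + f z * D g z := by
  simp only [D]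
  rw [deriv_fun_mul (hf.at hz) (hg.at hz)]
  ring

lemma D_const_mul {f : ℂ → ℂ} (hf : Hol f) (c : ℂ) {z : ℂ} (hz : ‖z‖ < 1) :
    D (fun z => c * f z) z = c * D f z := by
  rw [D_mul (hol_const c) hf hz, D_const]
  ring

lemma D_pow {f : ℂ → ℂ} (hf : Hol f) (n : ℕ) {z : ℂ} (hz : ‖z‖ < 1) :
    D (fun z => f z ^ (n + 1)) z = (n + 1) * f z ^ n * D f z := by
  simp only [D]
  rw [deriv_fun_pow (hf.at hz)]
  push_cast
  ring

lemma D_sq {f : ℂ → ℂ} (hf : Hol f) {z : ℂ} (hz : ‖z‖ < 1) :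
    D (fun z => f z ^ 2) z = 2 * f z * D f z := by
  have h := D_pow hf 1 hz
  rw [h]
  push_cast
  ring

lemma D_div {f g : ℂ → ℂ} (hf : Hol f) (hg : Hol g) {z : ℂ} (hz : ‖z‖ < 1) (h0 : g z ≠ 0) :
    D (fun z => f z / g z) z = (D f z * g z - f z * D g z) / g z ^ 2 := by
  simp only [D]
  rw [deriv_fun_div (hf.at hz) (hg.at hz) h0]
  ring

lemma D_comp_sq {f : ℂ → ℂ} (hf : Hol f) {z : ℂ} (hz : ‖z‖ < 1) :
    D (fun z => f (z ^ 2)) z = 2 * D f (z ^ 2) := by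
  have h1 : HasDerivAt (fun z : ℂ => z ^ 2) (2 * z) z := by
    simpa using hasDerivAt_pow 2 z
  have h2 := (hf.at (norm_sq_lt hz)).hasDerivAt.comp z h1
  have h3 : deriv (fun z => f (z ^ 2)) z = deriv f (z ^ 2) * (2 * z) := h2.deriv
  simp only [D]
  rw [h3]
  ring

/-- local iteration lemma -/
lemma eventually_zero_of_iter {e c : ℂ → ℂ} (he : AnalyticAt ℂ e 0) (hc : ContinuousAt c 0)
    (h0 : e 0 = 0) (h : ∀ᶠ z in 𝓝 (0 : ℂ), e z = c z * e (z ^ 2)) :
    ∀ᶠ z in 𝓝 (0 : ℂ), e z = 0 := by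
  by_contra hne
  obtain ⟨n, g, hg, hg0, heq⟩ := (he.exists_eventuallyEq_pow_smul_nonzero_iff).mpr hne
  simp only [sub_zero, smul_eq_mul] at heq
  have hn : n ≠ 0 := by
    rintro rfl
    have := heq.self_of_nhds
    rw [h0, pow_zero, one_mul] at this
    exact hg0 this.symm
  have hsq : Tendsto (fun z : ℂ => z ^ 2) (𝓝 0) (𝓝 0) := by
    have : ContinuousAt (fun z : ℂ => z ^ 2) 0 := by fun_prop
    simpa [ContinuousAt] using this
  have heq2 := hsq.eventually heq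
  have h1 : ∀ᶠ z in 𝓝[≠] (0 : ℂ), g z = c z * z ^ n * g (z ^ 2) := by
    rw [eventually_nhdsWithin_iff]
    filter_upwards [heq, heq2, h] with z h1 h2 h3 hz
    have hz' : z ≠ 0 := hz
    have h4 : z ^ n * g z = c z * ((z ^ 2) ^ n * g (z ^ 2)) := by
      rw [← h1, ← h2]
      exact h3
    have h5 : z ^ n ≠ 0 := pow_ne_zero n hz'
    apply mul_left_cancel₀ h5
    rw [h4]
    ring
  have h2 : Tendsto g (𝓝[≠] (0 : ℂ)) (𝓝 (g 0)) :=
    hg.continuousAt.tendsto.mono_left nhdsWithin_le_nhds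
  have h3 : Tendsto (fun z => c z * z ^ n * g (z ^ 2)) (𝓝[≠] (0 : ℂ)) (𝓝 (c 0 * 0 ^ n * g 0)) := by
    have h4 : ContinuousAt (fun z : ℂ => z ^ n) 0 := by fun_prop
    have h5 : Tendsto (fun z : ℂ => g (z ^ 2)) (𝓝 0) (𝓝 (g 0)) := hg.continuousAt.tendsto.comp hsq
    exact ((hc.tendsto.mul h4.tendsto).mul h5).mono_left nhdsWithin_le_nhds
  rw [zero_pow hn, mul_zero, zero_mul] at h3
  have h6 : Tendsto g (𝓝[≠] (0 : ℂ)) (𝓝 0) := h3.congr' (by
    filter_upwards [h1] with z hz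
    exact hz.symm)
  exact hg0 (tendsto_nhds_unique h2 h6)

/-- identity theorem on the disc -/
lemma Hol.eq_zero {e : ℂ → ℂ} (he : Hol e) (h : ∀ᶠ z in 𝓝 (0 : ℂ), e z = 0) {z : ℂ}
    (hz : ‖z‖ < 1) : e z = 0 := by
  have h1 : AnalyticOnNhd ℂ e (ball 0 1) := DifferentiableOn.analyticOnNhd he isOpen_ball
  have h2 : IsPreconnected (ball (0 : ℂ) 1) := (convex_ball (0 : ℂ) 1).isPreconnected
  exact h1.eqOn_zero_of_preconnected_of_eventuallyEq_zero h2 (by simp) h (mem_disc.mpr hz)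

lemma Hol.ext {e f : ℂ → ℂ} (he : Hol e) (hf : Hol f) (h : ∀ᶠ z in 𝓝 (0 : ℂ), e z = f z) {z : ℂ}
    (hz : ‖z‖ < 1) : e z = f z := by
  have h1 := (he.sub hf).eq_zero (by
    filter_upwards [h] with z hz
    rw [hz, sub_self]) hz
  exact sub_eq_zero.mp h1

/-- global iteration lemma -/
lemma Hol.zero_of_iter {e c : ℂ → ℂ} (he : Hol e) (hc : ContinuousAt c 0)
    (h0 : e 0 = 0) (h : ∀ z, ‖z‖ < 1 → e z = c z * e (z ^ 2)) {z : ℂ} (hz : ‖z‖ < 1) :
    e z = 0 := by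
  refine he.eq_zero ?_ hz
  refine eventually_zero_of_iter (he.analyticAt (by simp)) hc h0 ?_
  filter_upwards [isOpen_ball.mem_nhds (mem_disc.mpr (show ‖(0 : ℂ)‖ < 1 by simp))] with w hw
  exact h w (mem_disc.mp hw)

/-- primitives for `D`: if `h` is holomorphic on the disc and `h 0 = 0` then `D g = h` is solvable
with `g 0` given -/
theorem exists_D_primitive {h : ℂ → ℂ} (hh : Hol h) (h0 : h 0 = 0) (c : ℂ) :
    ∃ g, Hol g ∧ g 0 = c ∧ ∀ z, ‖z‖ < 1 → D g z = h z := by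
  have h1 : DifferentiableOn ℂ (dslope h 0) (ball 0 1) :=
    (differentiableOn_dslope (isOpen_ball.mem_nhds (by simp))).mpr hh
  obtain ⟨g, hg0, hg⟩ := (h1.isExactOn_ball).with_val_at 0 c
  refine ⟨g, fun z hz => (hg z hz).differentiableAt.differentiableWithinAt, hg0, fun z hz => ?_⟩
  rw [D, (hg z (mem_disc.mpr hz)).deriv]
  rcases eq_or_ne z 0 with rfl | hne
  · rw [zero_mul, h0]
  · rw [dslope_of_ne h hne, slope_def_field, h0]
    field_simp
    ring

/-- uniqueness of `D`-primitives -/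
lemma Hol.eq_of_D_eq {f g : ℂ → ℂ} (hf : Hol f) (hg : Hol g) (h0 : f 0 = g 0)
    (h : ∀ z, ‖z‖ < 1 → D f z = D g z) {z : ℂ} (hz : ‖z‖ < 1) : f z = g z := by
  have h1 : ∀ w ∈ ball (0 : ℂ) 1, deriv f w = deriv g w := by
    have h2 : ∀ w, ‖w‖ < 1 → deriv f w - deriv g w = 0 := by
      intro w hw
      refine (hf.der.sub hg.der).eq_zero ?_ hw
      have h3 : ∀ᶠ w in 𝓝[≠] (0 : ℂ), deriv f w - deriv g w = 0 := by
        rw [eventually_nhdsWithin_iff]
        filter_upwards [isOpen_ball.mem_nhds (mem_disc.mpr (show ‖(0 : ℂ)‖ < 1 by simp))]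
          with w hw hw0
        have h4 := h w (mem_disc.mp hw)
        simp only [D] at h4
        exact sub_eq_zero.mpr (mul_left_cancel₀ hw0 h4)
      have h5 : ContinuousAt (fun w => deriv f w - deriv g w) 0 :=
        ((hf.der.sub hg.der).at (by simp)).continuousAt
      have h6 : deriv f 0 - deriv g 0 = 0 := by
        have h7 : Tendsto (fun w => deriv f w - deriv g w) (𝓝[≠] (0 : ℂ))
            (𝓝 (deriv f 0 - deriv g 0)) := h5.tendsto.mono_left nhdsWithin_le_nhds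
        have h8 : Tendsto (fun w => deriv f w - deriv g w) (𝓝[≠] (0 : ℂ)) (𝓝 0) :=
          tendsto_const_nhds.congr' (by
            filter_upwards [h3] with z hz
            exact hz.symm)
        exact tendsto_nhds_unique h7 h8
      rw [eventually_nhdsWithin_iff] at h3
      filter_upwards [h3] with w hw
      rcases eq_or_ne w 0 with rfl | hne
      · exact h6
      · exact hw hne
    intro w hw
    exact sub_eq_zero.mp (h2 w (mem_disc.mp hw))
  have h2 := (convex_ball (0 : ℂ) 1).is_const_of_fderivWithin_eq_zero (𝕜 := ℂ)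
    (f := fun w => f w - g w) (hf.sub hg) ?_ (mem_disc.mpr hz)
    (mem_disc.mpr (show ‖(0 : ℂ)‖ < 1 by simp))
  · have h3 : f z - g z = f 0 - g 0 := h2
    rw [h0, sub_self] at h3
    exact sub_eq_zero.mp h3
  · intro w hw
    have h3 : HasDerivAt (fun w => f w - g w) (deriv f w - deriv g w) w :=
      (hf.at (mem_disc.mp hw)).hasDerivAt.sub (hg.at (mem_disc.mp hw)).hasDerivAt
    rw [h1 w hw, sub_self] at h3
    have h4 := h3.hasFDerivAt.hasFDerivWithinAt (s := ball (0 : ℂ) 1)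
    rw [h4.fderivWithin (isOpen_ball.uniqueDiffWithinAt hw)]
    ext
    simp

end Vale.Agent.P030.H810
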