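import Vale.Agent.P030.H810.Unif

/-!
P030, function layer, file 8: the inversion `z -> z'`, `log z log (-z') = π²/2`, for real `z`:
`S(-z') = (1 - S z)/(1 + S z)`, `kap z' = -(log z/π) (1 + S z) kap z`.
-/

open Complex Filter Topology Metric

namespace Vale.Agent.P030.H810

/-- `exp (-π s)` -/
noncomputable def qs (s : ℝ) : ℂ := ((Real.exp (-Real.pi * s) : ℝ) : ℂ)

lemma norm_qs {s : ℝ} (hs : 0 < s) : ‖qs s‖ < 1 := by
  rw [qs, Complex.norm_real, Real.norm_eq_abs, abs_of_pos (Real.exp_pos _), Real.exp_lt_one_iff]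
  have := mul_pos Real.pi_pos hs
  linarith

lemma qs_sq (s : ℝ) : qs s ^ 2 = qs (2 * s) := by
  rw [qs, qs, ← Complex.ofReal_pow, ← Real.exp_nat_mul]
  congr 2
  push_cast
  ring

lemma A_qs (s : ℝ) : A (qs s) = ((∑' n : ℤ, Real.exp (-Real.pi * s * (n : ℝ) ^ 2) : ℝ) : ℂ) := by
  rw [A, Complex.ofReal_tsum]
  refine tsum_congr fun n => ?_
  rw [qs, ← Complex.ofReal_pow, ← Real.exp_nat_mul]
  congr 2
  have h1 : ((e1 n : ℕ) : ℝ) = (n : ℝ) ^ 2 := by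
    have := e1_cast n
    have h2 : (((e1 n : ℕ) : ℤ) : ℝ) = (((n * n : ℤ)) : ℝ) := by rw [this]
    push_cast at h2
    rw [h2]
    ring
  rw [h1]
  ring

/-- theta inversion -/
theorem A_inv {s : ℝ} (hs : 0 < s) : A (qs (1 / s)) ^ 2 = s * A (qs s) ^ 2 := by
  have h := Real.tsum_exp_neg_mul_int_sq hs
  have h2 : ∑' n : ℤ, Real.exp (-Real.pi * (1 / s) * (n : ℝ) ^ 2)
      = s ^ (1 / 2 : ℝ) * ∑' n : ℤ, Real.exp (-Real.pi * s * (n : ℝ) ^ 2) := by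
    rw [h]
    have h3 : s ^ (1 / 2 : ℝ) ≠ 0 := (Real.rpow_pos_of_pos hs _).ne'
    rw [← mul_assoc, mul_one_div_cancel h3, one_mul]
    refine tsum_congr fun n => ?_
    congr 2
    ring
  rw [A_qs, A_qs, h2, Complex.ofReal_mul, mul_pow]
  congr 1
  rw [← Complex.ofReal_pow, ← Real.rpow_natCast, ← Real.rpow_mul hs.le]
  norm_num

lemma S_neg (z : ℂ) : S (-z) = - S z := by
  simp only [S, neg_sq]
  ring

lemma kap_neg (z : ℂ) : kap (-z) = kap z := by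
  simp only [kap, neg_sq]

/-- `A z ^ 2 = kap z * (1 + S z)` -/
lemma A_sq_eq {z : ℂ} (h : ‖z‖ < 1) : A z ^ 2 = kap z * (1 + S z) := by
  have h1 := A2_ne h
  rw [A_sq h, kap, S]
  field_simp

/-- the inverted parameter: for `z = exp (-π s)` it is `exp (-π / (2 s))` -/
theorem kap_inv {s : ℝ} (hs : 0 < s) :
    kap (qs (1 / (2 * s))) = s * (1 + S (qs s)) * kap (qs s) := by
  have h2 : (0 : ℝ) < 2 * s := by linarith
  have h1 : kap (qs (1 / (2 * s))) = A (qs (1 / s)) ^ 2 := by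
    rw [kap, qs_sq]
    congr 3
    field_simp
  rw [h1, A_inv hs, A_sq_eq (norm_qs hs)]
  ring

theorem S_inv {s : ℝ} (hs : 0 < s) :
    S (qs (1 / (2 * s))) = (1 - S (qs s)) / (1 + S (qs s)) := by
  have h2 : (0 : ℝ) < 2 * s := by linarith
  have h3 : (0 : ℝ) < 1 / (2 * s) := by positivity
  have e1 := A_sq_eq (norm_qs h3)
  rw [A_inv h2, kap_inv hs, ← qs_sq] at e1
  have e2 : A (qs s ^ 2) ^ 2 = kap (qs s) := rfl
  rw [e2] at e1
  have hk := kap_ne (norm_qs hs)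
  have hS := one_add_S_ne (norm_qs hs)
  have hs' : (s : ℂ) ≠ 0 := by exact_mod_cast hs.ne'
  rw [eq_div_iff hS]
  have e3 : (s : ℂ) * kap (qs s) * (2 - (1 + S (qs s)) * (1 + S (qs (1 / (2 * s))))) = 0 := by
    push_cast at e1 ⊢
    linear_combination e1
  have e4 : 2 - (1 + S (qs s)) * (1 + S (qs (1 / (2 * s)))) = 0 := by
    rcases mul_eq_zero.mp e3 with h | h
    · exact absurd h (mul_ne_zero hs' hk)
    · exact h
  linear_combination -e4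

/-! ### real points -/

lemma A_conj (z : ℂ) : A (starRingEnd ℂ z) = starRingEnd ℂ (A z) := by
  rw [A, A, conj_tsum]
  simp

lemma C_conj (z : ℂ) : C (starRingEnd ℂ z) = starRingEnd ℂ (C z) := by
  rw [C, C, conj_tsum]
  simp

lemma A_real (x : ℝ) : ∃ a : ℝ, A x = a := by
  have h := A_conj (x : ℂ)
  rw [Complex.conj_ofReal] at h
  exact (Complex.conj_eq_iff_real.mp h.symm)

lemma C_real (x : ℝ) : ∃ a : ℝ, C x = a := by
  have h := C_conj (x : ℂ)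
  rw [Complex.conj_ofReal] at h
  exact (Complex.conj_eq_iff_real.mp h.symm)

/-- `S` at real points -/
lemma S_real {x : ℝ} (hx : |x| < 1) : ∃ y : ℝ, S x = y ∧ |y| < 1 := by
  have hn : ‖(x : ℂ)‖ < 1 := by rwa [Complex.norm_real, Real.norm_eq_abs]
  obtain ⟨a, ha⟩ := A_real (x ^ 2)
  obtain ⟨c, hc⟩ := C_real (x ^ 2)
  obtain ⟨b, hb⟩ := A_real (-x ^ 2)
  have ha0 : A ((x : ℂ) ^ 2) ≠ 0 := A2_ne hn
  have hb0 : A (-(x : ℂ) ^ 2) ≠ 0 := A_ne_zero (norm_neg_sq_lt hn)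
  push_cast at ha hb hc
  have h1 := one_sub_S_sq hn
  rw [ha] at ha0
  rw [hb] at hb0
  refine ⟨x * (c / a) ^ 2, ?_, ?_⟩
  · rw [S, ha, hc]
    push_cast
    ring
  · rw [S, ha, hb, hc] at h1
    have h2 : (1 : ℝ) - (x * (c / a) ^ 2) ^ 2 = (b / a) ^ 4 := by exact_mod_cast h1
    have h3 : (0 : ℝ) < (b / a) ^ 4 := by
      have : b / a ≠ 0 := div_ne_zero (by exact_mod_cast hb0) (by exact_mod_cast ha0)
      positivity
    rw [← sq_lt_one_iff_abs_lt_one]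
    linarith

lemma hS_real {x : ℝ} (hx : |x| < 1) : ∃ y : ℝ, hS x = y ∧ 0 < y := by
  have hn : ‖(x : ℂ)‖ < 1 := by rwa [Complex.norm_real, Real.norm_eq_abs]
  obtain ⟨a, ha⟩ := A_real (x ^ 2)
  obtain ⟨c, hc⟩ := C_real (x ^ 2)
  have ha0 : A ((x : ℂ) ^ 2) ≠ 0 := A2_ne hn
  have hc0 : C ((x : ℂ) ^ 2) ≠ 0 := C2_ne hn
  push_cast at ha hc
  rw [ha] at ha0
  rw [hc] at hc0
  refine ⟨(c / a) ^ 2, ?_, ?_⟩
  · rw [hS, ha, hc]
    push_cast
    ring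
  · have : c / a ≠ 0 := div_ne_zero (by exact_mod_cast hc0) (by exact_mod_cast ha0)
    positivity

lemma norm_S_real {x : ℝ} (hx : |x| < 1) : ‖S x‖ < 1 := by
  obtain ⟨y, h1, h2⟩ := S_real hx
  rwa [h1, Complex.norm_real, Real.norm_eq_abs]

lemma S_pos {x : ℝ} (h0 : 0 < x) (h1 : x < 1) : ∃ y : ℝ, S x = y ∧ 0 < y ∧ y < 1 := by
  have hx : |x| < 1 := by rwa [abs_of_pos h0]
  obtain ⟨y, e1, e2⟩ := S_real hx
  obtain ⟨t, e3, e4⟩ := hS_real hx
  refine ⟨y, e1, ?_, (abs_lt.mp e2).2⟩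
  rw [S_eq, e3] at e1
  have : x * t = y := by exact_mod_cast e1
  rw [← this]
  positivity

/-- identity theorem on the real segment -/
lemma real_ext {f g : ℂ → ℂ} (hf : ∀ x : ℝ, |x| < 1 → AnalyticAt ℂ f x)
    (hg : ∀ x : ℝ, |x| < 1 → AnalyticAt ℂ g x) (h0 : f =ᶠ[𝓝 0] g) {x : ℝ} (hx : |x| < 1) :
    f x = g x := by
  have hr : ∀ {k : ℂ → ℂ}, (∀ x : ℝ, |x| < 1 → AnalyticAt ℂ k x) →
      AnalyticOnNhd ℝ (fun x : ℝ => k (x : ℂ)) (Set.Ioo (-1) 1) := by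
    intro k hk y hy
    have hy' : |y| < 1 := abs_lt.mpr hy
    have h1 : AnalyticAt ℝ k ((Complex.ofRealCLM y)) := (hk y hy').restrictScalars
    exact h1.comp (Complex.ofRealCLM.analyticAt y)
  have h1 : (fun x : ℝ => f (x : ℂ)) =ᶠ[𝓝 0] fun x : ℝ => g (x : ℂ) := by
    have : Tendsto (fun x : ℝ => (x : ℂ)) (𝓝 0) (𝓝 0) := by
      have := Complex.continuous_ofReal.tendsto 0
      rwa [Complex.ofReal_zero] at this
    exact this.eventually h0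
  exact (hr hf).eqOn_of_preconnected_of_eventuallyEq (hr hg) isPreconnected_Ioo
    (by norm_num : (0 : ℝ) ∈ Set.Ioo (-1 : ℝ) 1) h1 (abs_lt.mp hx)

end Vale.Agent.P030.H810
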