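import Vale.Agent.P030.H810.Kid

/-!
P030, function layer, file 11: the four branches of the `K`-equation and their linear relations.

`Kc` is any holomorphic function on `OmK = ℂ ∖ ((-∞,-1] ∪ [1,∞))` which is the sum of `serK` on the
unit disc.  `A0 u = (π/2) Kc u`, `A3 u = π/(1+u) Kc((u-1)/(u+1))`, `A1 u = π/(1-u) Kc((u+1)/(u-1))`,
`A2 u = (π/2) u⁻¹ Kc(u⁻¹)`.
-/

open Filter Topology Complex Metric Set

namespace Vale.Agent.P030.H810

/-- the plane cut along `(-∞,-1]` and `[1,∞)` -/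
def OmK : Set ℂ := {u | 1 - u ∈ slitPlane ∧ 1 + u ∈ slitPlane}

lemma isOpen_OmK : IsOpen OmK :=
  (isOpen_slitPlane.preimage (by fun_prop : Continuous fun u : ℂ => 1 - u)).inter
    (isOpen_slitPlane.preimage (by fun_prop : Continuous fun u : ℂ => 1 + u))

lemma mem_OmK_of_im {u : ℂ} (h : u.im ≠ 0) : u ∈ OmK := by
  refine ⟨Or.inr ?_, Or.inr ?_⟩
  · simpa using h
  · simpa using h

lemma mem_OmK_of_norm {u : ℂ} (h : ‖u‖ < 1) : u ∈ OmK := by
  have h1 := abs_lt.mp (lt_of_le_of_lt (Complex.abs_re_le_norm u) h)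
  refine ⟨Or.inl ?_, Or.inl ?_⟩
  · simp only [Complex.sub_re, Complex.one_re]; linarith
  · simp only [Complex.add_re, Complex.one_re]; linarith

lemma neg_mem_OmK {u : ℂ} (h : u ∈ OmK) : -u ∈ OmK := by
  refine ⟨?_, ?_⟩
  · have := h.2
    simpa using this
  · have := h.1
    simpa [sub_eq_add_neg] using this

lemma isPreconnected_OmK : IsPreconnected OmK := by
  have h1 : StarConvex ℝ (0 : ℂ) OmK := by
    intro u hu a b ha hb hab
    simp only [smul_zero, zero_add]
    refine ⟨?_, ?_⟩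
    · have h2 := starConvex_one_slitPlane hu.1 ha hb hab
      have e : a • (1 : ℂ) + b • (1 - u) = 1 - b • u := by
        rw [smul_sub, ← add_sub_assoc, ← add_smul, hab, one_smul]
      rwa [e] at h2
    · have h2 := starConvex_one_slitPlane hu.2 ha hb hab
      have e : a • (1 : ℂ) + b • (1 + u) = 1 + b • u := by
        rw [smul_add, ← add_assoc, ← add_smul, hab, one_smul]
      rwa [e] at h2
  exact (h1.isPathConnected (mem_OmK_of_norm (by simp))).isConnected.isPreconnected

/-- `Kc` is the continuation of the sum of `serK` -/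
structure IsKc (Kc : ℂ → ℂ) : Prop where
  diff : DifferentiableOn ℂ Kc OmK
  eq : ∀ u, ‖u‖ < 1 → Kc u = kS u

section

variable {Kc : ℂ → ℂ}

lemma IsKc.analyticAt (H : IsKc Kc) {u : ℂ} (hu : u ∈ OmK) : AnalyticAt ℂ Kc u :=
  H.diff.analyticAt (isOpen_OmK.mem_nhds hu)

lemma kS_neg (u : ℂ) : kS (-u) = kS u := by
  rw [kS, kS, H462.ev, H462.ev]
  refine tsum_congr fun n => ?_
  rcases Nat.even_or_odd n with h | h
  · rw [h.neg_pow]
  · have : PowerSeries.coeff n T.serK = 0 := by
      rw [T.serK, PowerSeries.coeff_mk, if_neg (Nat.not_even_iff_odd.mpr h)]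
    rw [this, map_zero, zero_mul, zero_mul]

lemma mS_neg (u : ℂ) : mS (-u) = mS u := by
  rw [mS, mS, H462.ev, H462.ev]
  refine tsum_congr fun n => ?_
  rcases Nat.even_or_odd n with h | h
  · rw [h.neg_pow]
  · have : PowerSeries.coeff n T.serM = 0 := by
      rw [T.serM, PowerSeries.coeff_mk, T.serK, PowerSeries.coeff_mk,
        if_neg (Nat.not_even_iff_odd.mpr h), zero_mul]
    rw [this, map_zero, zero_mul, zero_mul]

lemma IsKc.neg (H : IsKc Kc) {u : ℂ} (hu : u ∈ OmK) : Kc (-u) = Kc u := by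
  have h1 : AnalyticOnNhd ℂ (fun u => Kc (-u)) OmK := fun w hw =>
    AnalyticAt.comp (g := Kc) (f := fun u : ℂ => -u) (H.analyticAt (neg_mem_OmK hw))
      analyticAt_id.neg
  have h2 : AnalyticOnNhd ℂ Kc OmK := fun w hw => H.analyticAt hw
  refine h1.eqOn_of_preconnected_of_eventuallyEq h2 isPreconnected_OmK
    (mem_OmK_of_norm (u := 0) (by simp)) ?_ hu
  filter_upwards [eventually_disc] with w hw
  rw [H.eq _ (by rwa [norm_neg]), H.eq _ hw, kS_neg]

/-- Moebius images -/
lemma mob_mem {u : ℂ} (hu : u ∈ slitPlane) : (u - 1) / (u + 1) ∈ OmK := by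
  have h1 : u + 1 ≠ 0 := by
    intro h
    have h2 : u = -1 := by linear_combination h
    rw [h2] at hu
    rcases hu with h3 | h3 <;> simp at h3
    linarith
  -- `1 - t = 2/(u+1)`, `1 + t = 2u/(u+1)`
  have e1 : 1 - (u - 1) / (u + 1) = 2 / (u + 1) := by
    field_simp
    ring
  have e2 : 1 + (u - 1) / (u + 1) = 2 / (u⁻¹ + 1) := by
    have h3 : u ≠ 0 := slitPlane_ne_zero hu
    have h5 : u⁻¹ + 1 = (u + 1) / u := by field_simp; ring
    rw [h5, div_div_eq_mul_div]
    field_simp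
    ring
  have key : ∀ w : ℂ, w ∈ slitPlane → 2 / (w + 1) ∈ slitPlane := by
    intro w hw
    have h5 : w + 1 ∈ slitPlane := by
      rcases hw with h | h
      · left
        simp only [Complex.add_re, Complex.one_re]
        linarith
      · right
        simpa using h
    have h6 : (w + 1)⁻¹ ∈ slitPlane := by
      rw [mem_slitPlane_iff] at h5 ⊢
      rw [Complex.inv_re, Complex.inv_im]
      have h7 : w + 1 ≠ 0 := by
        intro h
        rw [h] at h5
        rcases h5 with h5 | h5 <;> simp at h5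
      have h8 : 0 < Complex.normSq (w + 1) := Complex.normSq_pos.mpr h7
      rcases h5 with h | h
      · left; positivity
      · right
        exact div_ne_zero (neg_ne_zero.mpr h) h8.ne'
    rw [div_eq_mul_inv]
    rw [mem_slitPlane_iff] at h6 ⊢
    rcases h6 with h | h
    · left
      have : (2 * (w + 1)⁻¹).re = 2 * ((w + 1)⁻¹).re := by simp [Complex.mul_re]
      rw [this]
      linarith
    · right
      have : (2 * (w + 1)⁻¹).im = 2 * ((w + 1)⁻¹).im := by simp [Complex.mul_im]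
      rw [this]
      exact mul_ne_zero two_ne_zero h
  have hinv : u⁻¹ ∈ slitPlane := by
    rw [mem_slitPlane_iff] at hu ⊢
    have h7 : u ≠ 0 := by
      intro h
      rw [h] at hu
      simp at hu
    have h8 : 0 < Complex.normSq u := Complex.normSq_pos.mpr h7
    rw [Complex.inv_re, Complex.inv_im]
    rcases hu with h | h
    · left; positivity
    · right
      exact div_ne_zero (neg_ne_zero.mpr h) h8.ne'
  refine ⟨?_, ?_⟩
  · rw [e1]; exact key u hu
  · rw [e2]; exact key _ hinv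

/-- the branch `(π/2) K` -/
noncomputable def A0 (Kc : ℂ → ℂ) (u : ℂ) : ℂ := Real.pi / 2 * Kc u
/-- the branch regular at `1` -/
noncomputable def A3 (Kc : ℂ → ℂ) (u : ℂ) : ℂ := Real.pi / (1 + u) * Kc ((u - 1) / (u + 1))
/-- the branch regular at `-1` -/
noncomputable def A1 (Kc : ℂ → ℂ) (u : ℂ) : ℂ := Real.pi / (1 - u) * Kc ((u + 1) / (u - 1))
/-- the branch regular at `∞` -/
noncomputable def A2 (Kc : ℂ → ℂ) (u : ℂ) : ℂ := Real.pi / 2 * (u⁻¹ * Kc (u⁻¹))

lemma one_add_ne_of_slit {u : ℂ} (hu : u ∈ slitPlane) : 1 + u ≠ 0 := by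
  intro h
  have h2 : u = -1 := by linear_combination h
  rw [h2] at hu
  rcases hu with h3 | h3 <;> simp at h3
  linarith

lemma IsKc.analyticAt_A3 (H : IsKc Kc) {u : ℂ} (hu : u ∈ slitPlane) : AnalyticAt ℂ (A3 Kc) u := by
  have h3 := one_add_ne_of_slit hu
  have h3' : u + 1 ≠ 0 := by rwa [add_comm]
  have h4 : AnalyticAt ℂ (fun u : ℂ => (u - 1) / (u + 1)) u :=
    (analyticAt_id.sub analyticAt_const).div (analyticAt_id.add analyticAt_const) h3'
  have h5 : AnalyticAt ℂ (fun u : ℂ => Kc ((u - 1) / (u + 1))) u :=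
    AnalyticAt.comp (g := Kc) (f := fun u : ℂ => (u - 1) / (u + 1)) (H.analyticAt (mob_mem hu)) h4
  exact (analyticAt_const.div (analyticAt_const.add analyticAt_id) h3).mul h5

/-- (c0) the expansion of `A3` at `u = 0` -/
theorem IsKc.A3_c0 (H : IsKc Kc) {u : ℂ} (h1 : ‖u‖ < 1) (h2 : u ∈ slitPlane) :
    A3 Kc u = -(kS u * (Complex.log u - 2 * (Real.log 2 : ℂ)) + mS u) := by
  set Om : Set ℂ := ball 0 1 ∩ slitPlane with hOm
  have hhalf : ((1 / 2 : ℝ) : ℂ) ∈ Om := by
    refine ⟨?_, ?_⟩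
    · rw [mem_ball_zero_iff, Complex.norm_real]; norm_num
    · exact Complex.ofReal_mem_slitPlane.mpr (by norm_num)
  have hstar : StarConvex ℝ ((1 / 2 : ℝ) : ℂ) Om := by
    intro w hw a b ha hb hab
    refine ⟨(convex_ball (0 : ℂ) 1) hhalf.1 hw.1 ha hb hab, ?_⟩
    rcases hw.2 with h | h
    · left
      have e : (a • ((1 / 2 : ℝ) : ℂ) + b • w).re = a * (1 / 2) + b * w.re := by simp
      rw [e]
      rcases ha.lt_or_eq with h' | h'
      · have : 0 ≤ b * w.re := mul_nonneg hb h.le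
        linarith
      · have hb1 : b = 1 := by rw [← h'] at hab; linarith
        rw [← h', hb1]
        linarith
    · have e : (a • ((1 / 2 : ℝ) : ℂ) + b • w).im = b * w.im := by simp
      rcases hb.lt_or_eq with h' | h'
      · right
        rw [e]
        exact mul_ne_zero h'.ne' h
      · left
        have ha1 : a = 1 := by rw [← h'] at hab; linarith
        have e2 : (a • ((1 / 2 : ℝ) : ℂ) + b • w).re = a * (1 / 2) + b * w.re := by simp
        rw [e2, ← h', ha1]
        norm_num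
  have hpre : IsPreconnected Om := (hstar.isPathConnected hhalf).isConnected.isPreconnected
  have hL : AnalyticOnNhd ℂ (A3 Kc) Om := fun w hw => H.analyticAt_A3 hw.2
  have hR : AnalyticOnNhd ℂ (fun u => -(kS u * (Complex.log u - 2 * (Real.log 2 : ℂ)) + mS u)) Om := by
    intro w hw
    have hw1 : ‖w‖ < 1 := by simpa using hw.1
    exact (((analyticAt_kS hw1).mul ((analyticAt_id.clog hw.2).sub analyticAt_const)).add
      (analyticAt_mS hw1)).neg
  refine hL.eqOn_of_preconnected_of_eventuallyEq hR hpre hhalf ?_ ⟨by simpa using h1, h2⟩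
  have ho : IsOpen (ball (0 : ℂ) 1 ∩ {u | 0 < u.re}) :=
    isOpen_ball.inter (isOpen_lt continuous_const Complex.continuous_re)
  have hm : ((1 / 2 : ℝ) : ℂ) ∈ ball (0 : ℂ) 1 ∩ {u | 0 < u.re} := by
    refine ⟨hhalf.1, ?_⟩
    show 0 < (((1 / 2 : ℝ) : ℂ)).re
    rw [Complex.ofReal_re]; norm_num
  filter_upwards [ho.mem_nhds hm] with w hw
  have hw1 : ‖w‖ < 1 := by simpa using hw.1
  rw [kid hw1 hw.2, A3, H.eq _ (norm_mob_lt hw.2)]

lemma log_neg_of_im_pos {u : ℂ} (hu : 0 < u.im) : Complex.log (-u) = Complex.log u - Real.pi * I := by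
  rw [Complex.log, Complex.log, norm_neg, Complex.arg_neg_eq_arg_sub_pi_of_im_pos hu]
  push_cast
  ring

lemma log_neg_of_im_neg {u : ℂ} (hu : u.im < 0) : Complex.log (-u) = Complex.log u + Real.pi * I := by
  rw [Complex.log, Complex.log, norm_neg, Complex.arg_neg_eq_arg_add_pi_of_im_neg hu]
  push_cast
  ring

/-- `A1 u = A3 (-u)` -/
lemma A1_eq {u : ℂ} (hu : -u ∈ slitPlane) : A1 Kc u = A3 Kc (-u) := by
  rw [A1, A3]
  congr 1
  have h1 : u - 1 ≠ 0 := by
    intro h
    apply one_add_ne_of_slit hu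
    linear_combination -h
  have h2 : (-u - 1) / (-u + 1) = (u + 1) / (u - 1) := by
    have : -u + 1 ≠ 0 := by
      intro h
      apply h1
      linear_combination -h
    rw [div_eq_div_iff this h1]
    ring
  rw [h2]

/-- `A1 = A3 + 2 i A0` on the upper half plane -/
theorem IsKc.A1_rel (H : IsKc Kc) {u : ℂ} (hu : 0 < u.im) :
    A1 Kc u = A3 Kc u + 2 * I * A0 Kc u := by
  set Om : Set ℂ := {u | 0 < u.im} with hOm
  have hconv : Convex ℝ Om := convex_halfSpace_im_gt 0
  have ho : IsOpen Om := isOpen_lt continuous_const Complex.continuous_im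
  have sl : ∀ w ∈ Om, w ∈ slitPlane := fun w hw => Or.inr (ne_of_gt hw)
  have sln : ∀ w ∈ Om, -w ∈ slitPlane := fun w hw => Or.inr (by
    rw [Complex.neg_im]
    exact neg_ne_zero.mpr (ne_of_gt hw))
  have hL : AnalyticOnNhd ℂ (fun u => A3 Kc (-u)) Om := fun w hw =>
    AnalyticAt.comp (g := A3 Kc) (f := fun u : ℂ => -u) (H.analyticAt_A3 (sln w hw))
      analyticAt_id.neg
  have hR : AnalyticOnNhd ℂ (fun u => A3 Kc u + 2 * I * A0 Kc u) Om := fun w hw =>
    (H.analyticAt_A3 (sl w hw)).add (analyticAt_const.mul (analyticAt_const.mul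
      (H.analyticAt (mem_OmK_of_im (ne_of_gt hw)))))
  rw [A1_eq (sln u hu)]
  have hp : (I / 2) ∈ Om := by
    show 0 < (I / 2).im
    simp
  refine hL.eqOn_of_preconnected_of_eventuallyEq hR hconv.isPreconnected hp ?_ hu
  have hb : (I / 2) ∈ ball (0 : ℂ) 1 := by
    rw [mem_ball_zero_iff, norm_div, Complex.norm_I]
    norm_num
  filter_upwards [ho.mem_nhds hp, isOpen_ball.mem_nhds hb] with w hw hw2
  have hw1 : ‖w‖ < 1 := by simpa using hw2
  rw [H.A3_c0 (by rwa [norm_neg]) (sln w hw), H.A3_c0 hw1 (sl w hw), kS_neg, mS_neg,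
    log_neg_of_im_pos hw, A0, H.eq w hw1]
  ring

/-- `A2 = A0 - i A3` on the upper half plane -/
theorem IsKc.A2_rel (H : IsKc Kc) {u : ℂ} (hu : 0 < u.im) :
    A2 Kc u = A0 Kc u - I * A3 Kc u := by
  have hu0 : u ≠ 0 := by
    intro h
    rw [h] at hu
    simp at hu
  have hv : 0 < (-u⁻¹).im := by
    rw [Complex.neg_im, Complex.inv_im, neg_div, neg_neg]
    have : 0 < Complex.normSq u := Complex.normSq_pos.mpr hu0
    positivity
  have h1 := H.A1_rel hv
  have hup : u + 1 ≠ 0 := by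
    intro h
    have := congrArg Complex.im h
    simp at this
    rw [this] at hu
    exact lt_irrefl _ hu
  have hum : u - 1 ≠ 0 := by
    intro h
    have := congrArg Complex.im h
    simp at this
    rw [this] at hu
    exact lt_irrefl _ hu
  have hum' : 1 - u ≠ 0 := by
    intro h
    apply hum
    linear_combination -h
  have hup' : 1 + u ≠ 0 := by rwa [add_comm]
  have t1 : (u - 1) / (u + 1) ∈ OmK := mob_mem (Or.inr (ne_of_gt hu))
  -- `A1 (-1/u) = u A3 u`
  have e1 : A1 Kc (-u⁻¹) = u * A3 Kc u := by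
    rw [A1, A3]
    have a1 : (-u⁻¹ + 1) / (-u⁻¹ - 1) = -((u - 1) / (u + 1)) := by
      have h3 : -u⁻¹ - 1 ≠ 0 := by
        intro h
        apply hup
        have : u * (-u⁻¹ - 1) = -(u + 1) := by field_simp; ring
        rw [h, mul_zero] at this
        linear_combination this
      rw [div_eq_iff h3]
      field_simp
      ring
    rw [a1, H.neg t1]
    have a2 : 1 - -u⁻¹ ≠ 0 := by
      intro h
      apply hup
      have : u * (1 - -u⁻¹) = u + 1 := by field_simp; ring
      rw [h, mul_zero] at this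
      exact this.symm
    have a3 : (Real.pi : ℂ) / (1 - -u⁻¹) = u * (Real.pi / (1 + u)) := by
      rw [div_eq_iff a2]
      field_simp
      ring
    rw [a3]
    ring
  -- `A3 (-1/u) = - u A1 u`
  have e2 : A3 Kc (-u⁻¹) = - (u * A1 Kc u) := by
    rw [A1, A3]
    have a1 : (-u⁻¹ - 1) / (-u⁻¹ + 1) = -((u + 1) / (u - 1)) := by
      have h3 : -u⁻¹ + 1 ≠ 0 := by
        intro h
        apply hum
        have : u * (-u⁻¹ + 1) = u - 1 := by field_simp; ring
        rw [h, mul_zero] at this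
        exact this.symm
      rw [div_eq_iff h3]
      field_simp
      ring
    have t2 : (u + 1) / (u - 1) ∈ OmK := by
      apply mem_OmK_of_im
      have h3 : ((u + 1) / (u - 1)).im = -2 * u.im / Complex.normSq (u - 1) := by
        rw [Complex.div_im]
        simp only [Complex.add_im, Complex.one_im, Complex.sub_re, Complex.one_re,
          Complex.add_re, Complex.sub_im]
        ring
      rw [h3]
      have h4 : 0 < Complex.normSq (u - 1) := Complex.normSq_pos.mpr hum
      apply ne_of_lt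
      apply div_neg_of_neg_of_pos _ h4
      linarith
    rw [a1, H.neg t2]
    have a2 : 1 + -u⁻¹ ≠ 0 := by
      intro h
      apply hum
      have : u * (1 + -u⁻¹) = u - 1 := by field_simp; ring
      rw [h, mul_zero] at this
      exact this.symm
    have a3 : (Real.pi : ℂ) / (1 + -u⁻¹) = -(u * (Real.pi / (1 - u))) := by
      rw [div_eq_iff a2]
      field_simp
      ring
    rw [a3]
    ring
  -- `A0 (-1/u) = u A2 u`
  have e3 : A0 Kc (-u⁻¹) = u * A2 Kc u := by
    rw [A0, A2]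
    have t3 : u⁻¹ ∈ OmK := by
      apply mem_OmK_of_im
      rw [Complex.inv_im]
      have h4 : 0 < Complex.normSq u := Complex.normSq_pos.mpr hu0
      exact div_ne_zero (neg_ne_zero.mpr hu.ne') h4.ne'
    rw [H.neg t3]
    field_simp
  rw [e1, e2, e3] at h1
  have h2 := H.A1_rel hu
  have h3 : u * A3 Kc u = u * (-A1 Kc u + 2 * I * A2 Kc u) := by rw [h1]; ring
  have h4 : A3 Kc u = -A1 Kc u + 2 * I * A2 Kc u := mul_left_cancel₀ hu0 h3
  rw [h2] at h4
  have hI : I * I = -1 := Complex.I_mul_I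
  have h5 : 2 * I * A2 Kc u = 2 * I * (A0 Kc u - I * A3 Kc u) := by
    linear_combination -h4 + (2 * A3 Kc u) * hI
  exact mul_left_cancel₀ (mul_ne_zero two_ne_zero Complex.I_ne_zero) h5

/-- (c3) the expansion of `A0` at `u = 1`, `t = (u-1)/(u+1)` -/
theorem IsKc.A0_c3 (H : IsKc Kc) {t : ℂ} (h1 : ‖t‖ < 1) (h2 : -t ∈ slitPlane) :
    A0 Kc ((1 + t) / (1 - t))
      = -((1 - t) / 2 * (kS t * (Complex.log (-t) - 2 * (Real.log 2 : ℂ)) + mS t)) := by
  have h3 := H.A3_c0 (u := -t) (by rwa [norm_neg]) h2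
  rw [kS_neg, mS_neg, A3] at h3
  have ht : 1 - t ≠ 0 := by
    intro h
    have : t = 1 := by linear_combination -h
    rw [this] at h1
    simp at h1
  have e1 : (-t - 1) / (-t + 1) = -((1 + t) / (1 - t)) := by
    have : -t + 1 ≠ 0 := by
      intro h; apply ht; linear_combination h
    rw [div_eq_iff this]
    field_simp
    ring
  have m1 : (-t - 1) / (-t + 1) ∈ OmK := mob_mem h2
  have m2 : (1 + t) / (1 - t) ∈ OmK := by
    rw [e1] at m1
    have := neg_mem_OmK m1
    rwa [neg_neg] at this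
  rw [e1, H.neg m2] at h3
  rw [A0]
  have e2 : (1 + -t) = 1 - t := by ring
  rw [e2] at h3
  have : (Real.pi : ℂ) / 2 * Kc ((1 + t) / (1 - t))
      = (1 - t) / 2 * (Real.pi / (1 - t) * Kc ((1 + t) / (1 - t))) := by
    field_simp
  rw [this, h3]
  ring

/-- (c1) the expansion of `A0` at `u = -1`, `t = (u+1)/(u-1)`, `u = -(1+t)/(1-t)` -/
theorem IsKc.A0_c1 (H : IsKc Kc) {t : ℂ} (h1 : ‖t‖ < 1) (h2 : -t ∈ slitPlane) :
    A0 Kc (-((1 + t) / (1 - t)))
      = -((1 - t) / 2 * (kS t * (Complex.log (-t) - 2 * (Real.log 2 : ℂ)) + mS t)) := by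
  rw [← H.A0_c3 h1 h2, A0, A0]
  have ht : 1 - t ≠ 0 := by
    intro h
    have : t = 1 := by linear_combination -h
    rw [this] at h1
    simp at h1
  have e1 : (-t - 1) / (-t + 1) = -((1 + t) / (1 - t)) := by
    have : -t + 1 ≠ 0 := by
      intro h; apply ht; linear_combination h
    rw [div_eq_iff this]
    field_simp
    ring
  have m1 : (-t - 1) / (-t + 1) ∈ OmK := mob_mem h2
  rw [e1] at m1
  have m2 := neg_mem_OmK m1
  rw [neg_neg] at m2
  rw [H.neg m2]

/-- (c3) the expansion of `A3` at `u = 1` -/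
theorem IsKc.A3_c3 (H : IsKc Kc) {t : ℂ} (h1 : ‖t‖ < 1) :
    A3 Kc ((1 + t) / (1 - t)) = Real.pi * ((1 - t) / 2 * kS t) := by
  have ht : 1 - t ≠ 0 := by
    intro h
    have : t = 1 := by linear_combination -h
    rw [this] at h1
    simp at h1
  have e1 : ((1 + t) / (1 - t) - 1) / ((1 + t) / (1 - t) + 1) = t := by
    have e2 : (1 + t) / (1 - t) + 1 = 2 / (1 - t) := by field_simp; ring
    have e3 : (1 + t) / (1 - t) - 1 = 2 * t / (1 - t) := by field_simp; ring
    rw [e2, e3]
    field_simp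
  have e2 : 1 + (1 + t) / (1 - t) = 2 / (1 - t) := by field_simp; ring
  rw [A3, e1, H.eq t h1, e2]
  field_simp

/-- (c1) the expansion of `A1` at `u = -1` -/
theorem IsKc.A1_c1 (H : IsKc Kc) {t : ℂ} (h1 : ‖t‖ < 1) :
    A1 Kc (-((1 + t) / (1 - t))) = Real.pi * ((1 - t) / 2 * kS t) := by
  have ht : 1 - t ≠ 0 := by
    intro h
    have : t = 1 := by linear_combination -h
    rw [this] at h1
    simp at h1
  have e1 : (-((1 + t) / (1 - t)) + 1) / (-((1 + t) / (1 - t)) - 1) = t := by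
    have e2 : -((1 + t) / (1 - t)) - 1 = -2 / (1 - t) := by field_simp; ring
    have e3 : -((1 + t) / (1 - t)) + 1 = -2 * t / (1 - t) := by field_simp; ring
    rw [e2, e3]
    field_simp
  have e2 : 1 - -((1 + t) / (1 - t)) = 2 / (1 - t) := by field_simp; ring
  rw [A1, e1, H.eq t h1, e2]
  field_simp

/-- (c2) the expansion of `A2` at infinity -/
theorem IsKc.A2_c2 (H : IsKc Kc) {v : ℂ} (h1 : ‖v‖ < 1) :
    A2 Kc v⁻¹ = Real.pi / 2 * (v * kS v) := by
  rw [A2, inv_inv, H.eq v h1]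

/-- (c2) the expansion of `A3` at infinity -/
theorem IsKc.A3_c2 (H : IsKc Kc) {v : ℂ} (h1 : ‖v‖ < 1) (h2 : v ∈ slitPlane) :
    A3 Kc v⁻¹ = -(v * (kS v * (Complex.log v - 2 * (Real.log 2 : ℂ)) + mS v)) := by
  have h3 := H.A3_c0 h1 h2
  have hv : v ≠ 0 := slitPlane_ne_zero h2
  have hv1 := one_add_ne_of_slit h2
  have hv1' : v + 1 ≠ 0 := by rwa [add_comm]
  have e : A3 Kc v⁻¹ = v * A3 Kc v := by
    rw [A3, A3]
    have e1 : (v⁻¹ - 1) / (v⁻¹ + 1) = -((v - 1) / (v + 1)) := by
      have : v⁻¹ + 1 ≠ 0 := by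
        intro h
        apply hv1
        have h5 : v * (v⁻¹ + 1) = 1 + v := by field_simp
        rw [h, mul_zero] at h5
        exact h5.symm
      rw [div_eq_iff this]
      field_simp
      ring
    have e2 : (Real.pi : ℂ) / (1 + v⁻¹) = v * (Real.pi / (1 + v)) := by
      have : 1 + v⁻¹ ≠ 0 := by
        intro h
        apply hv1
        have h5 : v * (1 + v⁻¹) = 1 + v := by field_simp; ring
        rw [h, mul_zero] at h5
        exact h5.symm
      rw [div_eq_iff this]
      field_simp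
      ring
    rw [e1, H.neg (mob_mem h2), e2]
    ring
  rw [e, h3]
  ring

/-- (c2) the expansion of `A1` at infinity -/
theorem IsKc.A1_c2 (H : IsKc Kc) {v : ℂ} (h1 : ‖v‖ < 1) (h2 : -v ∈ slitPlane) :
    A1 Kc v⁻¹ = v * (kS v * (Complex.log (-v) - 2 * (Real.log 2 : ℂ)) + mS v) := by
  have h3 : -v⁻¹ = (-v)⁻¹ := by rw [inv_neg]
  have hs : -v⁻¹ ∈ slitPlane := by
    rw [h3, mem_slitPlane_iff]
    rw [mem_slitPlane_iff] at h2
    have h7 : -v ≠ 0 := by
      intro h
      rw [h] at h2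
      simp at h2
    have h8 : 0 < Complex.normSq (-v) := Complex.normSq_pos.mpr h7
    rw [Complex.inv_re, Complex.inv_im]
    rcases h2 with h | h
    · left; positivity
    · right
      exact div_ne_zero (neg_ne_zero.mpr h) h8.ne'
  rw [A1_eq hs, h3, H.A3_c2 (by rwa [norm_neg]) h2, kS_neg, mS_neg]
  ring

end

end Vale.Agent.P030.H810
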