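import Vale.Agent.P030.H810.Groups
import Vale.Agent.P030.H810.Inv
import Vale.Agent.P030.H462.Ev

/-!
P030, function layer, file 9: the connection formula of the `K`-equation
`-(K(u) (log u - 2 log 2) + M(u)) = π/(1+u) K((u-1)/(u+1))`, `|u| < 1`, `Re u > 0`.
-/

open PowerSeries Filter Topology Complex Metric

namespace Vale.Agent.P030.H810

open Vale.Agent.P030.T Vale.Agent.P030.H605 Vale.Agent.P030.H462

/-- the embedding of the coefficients -/
noncomputable abbrev phQ : ℚ →+* ℂ := Rat.castHom ℂ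

lemma abs_coeff_serK (n : ℕ) : |(coeff n serK : ℚ)| ≤ 1 := by
  rw [serK, coeff_mk]
  split_ifs with h
  · obtain ⟨m, rfl⟩ := h
    have e : (m + m) / 2 = m := by omega
    rw [e]
    have h1 : (Nat.centralBinom m : ℚ) ≤ 4 ^ m := by exact_mod_cast Nat.centralBinom_le_four_pow m
    have h2 : (0 : ℚ) ≤ Nat.centralBinom m := by positivity
    rw [abs_of_nonneg (by positivity), div_le_one (by positivity)]
    calc (Nat.centralBinom m : ℚ) ^ 2 ≤ (4 ^ m) ^ 2 := pow_le_pow_left₀ h2 h1 2
      _ = 4 ^ (m + m) := by rw [← pow_mul]; ring_nf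
  · simp

lemma pg_serK : PG phQ serK := by
  refine PG.of_le 1 0 fun n => ?_
  have h1 := abs_coeff_serK n
  rw [pow_zero, mul_one]
  have h2 : ‖phQ (coeff n serK)‖ = ((|(coeff n serK : ℚ)| : ℚ) : ℝ) := by
    simp only [phQ, Rat.coe_castHom]
    rw [show ((coeff n serK : ℚ) : ℂ) = (((coeff n serK : ℚ) : ℝ) : ℂ) by push_cast; rfl,
      Complex.norm_real, Real.norm_eq_abs]
    push_cast
    rfl
  rw [h2]
  exact_mod_cast h1

lemma abs_cMs (n : ℕ) : |cMs n| ≤ 2 * ((n : ℚ) + 1) := by
  rw [cMs]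
  refine (Finset.abs_sum_le_sum_abs _ _).trans ?_
  have h1 : ∀ j ∈ Finset.range (n / 2), |(2 / (2 * (j : ℚ) + 1) - 2 / (2 * (j : ℚ) + 2))| ≤ 2 := by
    intro j _
    have a : (0 : ℚ) < 2 * (j : ℚ) + 1 := by positivity
    have b : (0 : ℚ) < 2 * (j : ℚ) + 2 := by positivity
    have c : 2 / (2 * (j : ℚ) + 1) - 2 / (2 * (j : ℚ) + 2)
        = 2 / ((2 * (j : ℚ) + 1) * (2 * (j : ℚ) + 2)) := by
      field_simp
      ring
    rw [c, abs_of_nonneg (by positivity), div_le_iff₀ (by positivity)]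
    have d : (1 : ℚ) ≤ (2 * (j : ℚ) + 1) * (2 * (j : ℚ) + 2) := by
      have : (0 : ℚ) ≤ j := by positivity
      nlinarith
    linarith
  refine (Finset.sum_le_card_nsmul _ _ _ h1).trans ?_
  rw [Finset.card_range, nsmul_eq_mul]
  have h2 : ((n / 2 : ℕ) : ℚ) ≤ n := by exact_mod_cast Nat.div_le_self n 2
  linarith

lemma pg_serM : PG phQ serM := by
  refine PG.of_le 2 1 fun n => ?_
  have h1 := abs_coeff_serK n
  have h3 := abs_cMs n
  rw [pow_one]
  have h2 : ‖phQ (coeff n serM)‖ = ((|(coeff n serK : ℚ)| * |cMs n| : ℚ) : ℝ) := by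
    simp only [phQ, Rat.coe_castHom, serM, coeff_mk]
    rw [← abs_mul]
    rw [show ((coeff n serK * cMs n : ℚ) : ℂ) = (((coeff n serK * cMs n : ℚ) : ℝ) : ℂ) by
      push_cast; rfl, Complex.norm_real, Real.norm_eq_abs]
    push_cast
    rfl
  rw [h2]
  have h4 : |(coeff n serK : ℚ)| * |cMs n| ≤ 2 * ((n : ℚ) + 1) := by
    calc |(coeff n serK : ℚ)| * |cMs n| ≤ 1 * (2 * ((n : ℚ) + 1)) :=
          mul_le_mul h1 h3 (abs_nonneg _) (by norm_num)
      _ = _ := by ring
  exact_mod_cast h4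

/-- the sum of `serK` -/
noncomputable def kS (u : ℂ) : ℂ := ev phQ serK u

/-- the sum of `serM` -/
noncomputable def mS (u : ℂ) : ℂ := ev phQ serM u

lemma cm_eq_phQ (p : ℚ⟦X⟧) (n : ℕ) : coeff n (cm p) = phQ (coeff n p) := by
  rw [coeff_cm]
  simp [phQ]

/-- a `Ser`-statement in the chart `S` gives the value of the sum -/
lemma ev_of_ser {p : ℚ⟦X⟧} (hp : PG phQ p) {F : ℂ → ℂ} (h : Ser S 0 (cm p) F) :
    (fun z => ev phQ p (S z)) =ᶠ[𝓝 0] F := by
  have h1 := h.hasSum chartS
  have h2 : ∀ᶠ z in 𝓝 (0 : ℂ), ‖S z‖ < 1 := by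
    have : ContinuousAt S 0 := (hol_S.at (by simp)).continuousAt
    have h3 : Tendsto (fun z => ‖S z‖) (𝓝 0) (𝓝 0) := by
      have := this.norm.tendsto
      simpa using this
    exact h3.eventually (gt_mem_nhds one_pos)
  filter_upwards [h1, h2] with z h3 h4
  have h5 := hp.hasSum h4
  have h6 : (fun n => coeff n (cm p) * S z ^ n) = fun n => phQ (coeff n p) * S z ^ n := by
    funext n
    rw [cm_eq_phQ]
  rw [h6] at h3
  exact h5.unique h3

lemma ser_kap : Ser S 0 (cm serK) kap := by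
  have h1 := ser_of_opK (q := cm serK) (c := 0) (Cc := fun _ => 0) (Φ := fun _ => 1)
    Ser.zero (hol_const 1) ?_ ?_ ?_
  · simpa using h1
  · rw [coeff_cm, serK_zero]
    simp
  · intro z hz
    have h2 : ∀ w, ‖w‖ < 1 → D (fun _ => (1 : ℂ)) w = (fun _ => 0) w := fun w _ => D_const 1 w
    rw [D_congr h2 hz, D_const]
    ring
  · rw [← cm_opQ, opQ_K, map_zero]

lemma kS_S_near : (fun z => kS (S z)) =ᶠ[𝓝 0] kap := ev_of_ser pg_serK ser_kap

lemma norm_real_lt {x : ℝ} (hx : |x| < 1) : ‖(x : ℂ)‖ < 1 := by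
  rwa [Complex.norm_real, Real.norm_eq_abs]

lemma analyticAt_kS {u : ℂ} (hu : ‖u‖ < 1) : AnalyticAt ℂ kS u := analyticAt_ev pg_serK hu

lemma analyticAt_mS {u : ℂ} (hu : ‖u‖ < 1) : AnalyticAt ℂ mS u := analyticAt_ev pg_serM hu

/-- `K (S x) = kap x` on the real segment -/
theorem kS_S {x : ℝ} (hx : |x| < 1) : kS (S x) = kap x := by
  refine real_ext (f := fun z => kS (S z)) (g := kap) (fun y hy => ?_) (fun y hy => ?_)
    kS_S_near hx
  · exact (analyticAt_kS (norm_S_real hy)).comp (hol_S.analyticAt (norm_real_lt hy))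
  · exact hol_kap.analyticAt (norm_real_lt hy)

/-! ### the second solution -/

lemma exists_PhiM : ∃ Φ : ℂ → ℂ, Hol Φ ∧ Φ 0 = 0 ∧ ∀ z, ‖z‖ < 1 → D Φ z = 1 - R z :=
  exists_D_primitive ((hol_const 1).sub hol_R) (by rw [R_zero, sub_self]) 0

/-- `- log (S z / (4 z))` -/
noncomputable def PhiM : ℂ → ℂ := exists_PhiM.choose

lemma hol_PhiM : Hol PhiM := exists_PhiM.choose_spec.1
lemma PhiM_zero : PhiM 0 = 0 := exists_PhiM.choose_spec.2.1
lemma D_PhiM {z : ℂ} (hz : ‖z‖ < 1) : D PhiM z = 1 - R z := exists_PhiM.choose_spec.2.2 z hz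

lemma D_R {z : ℂ} (hz : ‖z‖ < 1) : D R z = 2 * (1 - S z ^ 2) * kap z * D kap z
    - 2 * S z ^ 2 * R z * kap z ^ 2 := by
  have h1 : ∀ w, ‖w‖ < 1 → R w = (fun w => (1 - S w ^ 2) * kap w ^ 2) w := fun w hw => R_eq hw
  rw [D_congr h1 hz]
  rw [D_mul ((hol_const 1).sub (hol_S.pow 2)) (hol_kap.pow 2) hz,
    D_sub (hol_const 1) (hol_S.pow 2) hz, D_const, D_sq hol_S hz, D_sq hol_kap hz, D_S hz]
  ring

lemma ser_M : Ser S 0 (cm serM) fun z => kap z * PhiM z := by
  have hk : Ser S 0 (tC (cm serK)) fun z => D kap z / R z := ser_tC hol_kap ser_kap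
  have two : Ser S 0 (2 : ℂ⟦X⟧) fun _ => 2 := by
    have := Ser.const (h := S) (z0 := 0) 2
    rwa [map_ofNat] at this
  have hc := ((two.mul ((Ser.X.pow 2).mul hk)).add (two.mul ((Ser.X.pow 2).mul ser_kap))).sub
    (two.mul hk)
  refine ser_of_opK hc hol_PhiM ?_ ?_ ?_
  · rw [PhiM_zero, coeff_cm]
    simp [serM, cMs]
  · intro z hz
    have h1 : ∀ w, ‖w‖ < 1 → D PhiM w = (fun w => 1 - R w) w := fun w hw => D_PhiM hw
    rw [D_congr h1 hz, D_sub (hol_const 1) hol_R hz, D_const, D_R hz]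
    have h2 := R_ne hz
    have h3 := R_eq hz
    field_simp
    rw [h3]
    ring
  · rw [← cm_opQ, opQ_M]
    simp only [map_sub, map_add, map_mul, map_pow, cm_X, cm_th, map_ofNat]

/-- `PhiM = log 4 - log hS` on the real segment -/
lemma PhiM_real {x : ℝ} (hx : |x| < 1) : PhiM x = Complex.log 4 - Complex.log (hS x) := by
  have hlog : ∀ y : ℝ, |y| < 1 → AnalyticAt ℂ (fun z => Complex.log 4 - Complex.log (hS z)) y := by
    intro y hy
    obtain ⟨t, h1, h2⟩ := hS_real hy
    have h3 : hS y ∈ slitPlane := by rw [h1]; exact Complex.ofReal_mem_slitPlane.mpr h2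
    exact analyticAt_const.sub ((hol_hS.analyticAt (norm_real_lt hy)).clog h3)
  refine real_ext (f := PhiM) (g := fun z => Complex.log 4 - Complex.log (hS z))
    (fun y hy => hol_PhiM.analyticAt (norm_real_lt hy)) hlog ?_ hx
  -- near zero: the derivatives agree
  have hc : ContinuousAt hS 0 := (hol_hS.at (by simp)).continuousAt
  have hsl : ∀ᶠ z in 𝓝 (0 : ℂ), hS z ∈ slitPlane := by
    apply hc.eventually_mem
    apply isOpen_slitPlane.mem_nhds
    rw [hS_zero]
    exact Complex.ofReal_mem_slitPlane.mpr (by norm_num : (0 : ℝ) < 4)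
  obtain ⟨r, hr, hball⟩ := Metric.eventually_nhds_iff_ball.mp (hsl.and eventually_disc)
  have hder : ∀ z ∈ ball (0 : ℂ) r, HasDerivAt
      (fun z => PhiM z - (Complex.log 4 - Complex.log (hS z))) 0 z := by
    intro z hz
    obtain ⟨h1, h2⟩ := hball z hz
    have h3 : HasDerivAt (fun z => Complex.log (hS z)) (deriv hS z / hS z) z :=
      (hol_hS.at h2).hasDerivAt.clog h1
    have h4 := (hol_PhiM.at h2).hasDerivAt.sub
      ((hasDerivAt_const z (Complex.log 4)).sub h3)
    have h5 : deriv PhiM z - (0 - deriv hS z / hS z) = 0 := by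
      -- `D PhiM = 1 - R`, `D hS = hS (R - 1)`
      have h6 : ∀ w, ‖w‖ < 1 → deriv PhiM w + deriv hS w / hS w = 0 := by
        intro w hw
        have hh : Hol fun w => deriv PhiM w + deriv hS w / hS w :=
          hol_PhiM.der.add (hol_hS.der.div hol_hS fun _ hz => hS_ne hz)
        have h7 := Hol.eq_of_D_eq (f := fun _ => (0 : ℂ)) (g := fun w => PhiM w * 0) (hol_const 0)
          (hol_PhiM.mul (hol_const 0)) (by simp) (fun z hz => by simp [D]) hw
        clear h7
        refine hh.eq_zero ?_ hw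
        have h8 : ∀ᶠ w in 𝓝[≠] (0 : ℂ), deriv PhiM w + deriv hS w / hS w = 0 := by
          rw [eventually_nhdsWithin_iff]
          filter_upwards [eventually_disc] with w hw hw0
          have hw0 : w ≠ 0 := hw0
          have e1 := D_PhiM hw
          have e2 : LS w = R w := LS_eq_R hw
          rw [LS] at e2
          rw [D] at e1 e2
          have e3 : w * (deriv PhiM w + deriv hS w / hS w) = 0 := by
            rw [mul_add, e1, ← e2]
            ring
          rcases mul_eq_zero.mp e3 with h | h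
          · exact absurd h hw0
          · exact h
        have h9 : ContinuousAt (fun w => deriv PhiM w + deriv hS w / hS w) 0 :=
          (hh.at (by simp)).continuousAt
        have h10 : deriv PhiM 0 + deriv hS 0 / hS 0 = 0 := by
          have a := h9.tendsto.mono_left (nhdsWithin_le_nhds (s := {0}ᶜ))
          have b : Tendsto (fun w => deriv PhiM w + deriv hS w / hS w) (𝓝[≠] (0 : ℂ)) (𝓝 0) :=
            tendsto_const_nhds.congr' (by
              filter_upwards [h8] with z hz
              exact hz.symm)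
          exact tendsto_nhds_unique a b
        rw [eventually_nhdsWithin_iff] at h8
        filter_upwards [h8] with w hw
        rcases eq_or_ne w 0 with rfl | hne
        · exact h10
        · exact hw hne
      have := h6 z h2
      linear_combination this
    rw [h5] at h4
    exact h4
  have hconst : ∀ z ∈ ball (0 : ℂ) r, PhiM z - (Complex.log 4 - Complex.log (hS z)) = 0 := by
    intro z hz
    have h1 := (convex_ball (0 : ℂ) r).is_const_of_fderivWithin_eq_zero (𝕜 := ℂ)
      (f := fun z => PhiM z - (Complex.log 4 - Complex.log (hS z)))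
      (fun w hw => (hder w hw).differentiableAt.differentiableWithinAt) ?_ hz (mem_ball_self hr)
    · have h2 : PhiM z - (Complex.log 4 - Complex.log (hS z))
          = PhiM 0 - (Complex.log 4 - Complex.log (hS 0)) := h1
      rw [h2, PhiM_zero, hS_zero]
      ring
    · intro w hw
      have h4 := (hder w hw).hasFDerivAt.hasFDerivWithinAt (s := ball (0 : ℂ) r)
      rw [h4.fderivWithin (isOpen_ball.uniqueDiffWithinAt hw)]
      ext
      simp
  filter_upwards [isOpen_ball.mem_nhds (mem_ball_self hr)] with z hz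
  have := hconst z hz
  exact sub_eq_zero.mp this

/-- `M (S x) = kap x (log 4 - log hS)` -/
theorem mS_S {x : ℝ} (hx : |x| < 1) :
    mS (S x) = kap x * (Complex.log 4 - Complex.log (hS x)) := by
  rw [← PhiM_real hx]
  refine real_ext (f := fun z => mS (S z)) (g := fun z => kap z * PhiM z) (fun y hy => ?_)
    (fun y hy => ?_) (ev_of_ser pg_serM ser_M) hx
  · exact (analyticAt_mS (norm_S_real hy)).comp (hol_S.analyticAt (norm_real_lt hy))
  · exact (hol_kap.mul hol_PhiM).analyticAt (norm_real_lt hy)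

/-- the second solution at real points: `- kap x log x` -/
theorem second_real {x : ℝ} (h0 : 0 < x) (h1 : x < 1) :
    -(kS (S x) * (Complex.log (S x) - Complex.log 4) + mS (S x)) = - (kap x * Complex.log x) := by
  have hx : |x| < 1 := by rwa [abs_of_pos h0]
  obtain ⟨t, h2, h3⟩ := hS_real hx
  have h4 : Complex.log (S x) = Complex.log x + Complex.log (hS x) := by
    rw [S_eq, h2, ← Complex.ofReal_mul, ← Complex.ofReal_log (by positivity),
      ← Complex.ofReal_log h0.le, ← Complex.ofReal_log h3.le, Real.log_mul h0.ne' h3.ne']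
    push_cast
    ring
  rw [kS_S hx, mS_S hx, h4]
  ring

end Vale.Agent.P030.H810
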