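import Vale.Agent.P030.H810.Kc

/-!
P030, function layer, file 10: the connection formula.
-/

open Filter Topology Complex Metric Set

namespace Vale.Agent.P030.H810

lemma log_four : Complex.log 4 = 2 * (Real.log 2 : ℂ) := by
  have h : (4 : ℂ) = ((4 : ℝ) : ℂ) := by norm_num
  rw [h, ← Complex.ofReal_log (by norm_num), show (4 : ℝ) = 2 ^ 2 by norm_num, Real.log_pow]
  push_cast
  ring

/-- the connection formula at real points -/
lemma kid_real {x : ℝ} (h0 : 0 < x) (h1 : x < 1) :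
    -(kS (S x) * (Complex.log (S x) - 2 * (Real.log 2 : ℂ)) + mS (S x))
      = Real.pi / (1 + S x) * kS ((S x - 1) / (S x + 1)) := by
  rw [← log_four, second_real h0 h1]
  set s : ℝ := -Real.log x / Real.pi with hs
  have hlog : Real.log x < 0 := Real.log_neg h0 h1
  have hs0 : 0 < s := div_pos (by linarith) Real.pi_pos
  have hx : (x : ℂ) = qs s := by
    rw [qs]
    congr 1
    rw [hs]
    have hpi := Real.pi_pos.ne'
    rw [show -Real.pi * (-Real.log x / Real.pi) = Real.log x by field_simp, Real.exp_log h0]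
  have h2s : (0 : ℝ) < 1 / (2 * s) := by positivity
  have hS := one_add_S_ne (norm_qs hs0)
  have e1 : (S x - 1) / (S x + 1) = S (-(qs (1 / (2 * s)))) := by
    rw [S_neg, S_inv hs0, hx]
    rw [add_comm (S (qs s)) 1]
    field_simp
    ring
  obtain ⟨y, hy, hy1⟩ : ∃ y : ℝ, -(qs (1 / (2 * s))) = (y : ℂ) ∧ |y| < 1 := by
    refine ⟨-(Real.exp (-Real.pi * (1 / (2 * s)))), ?_, ?_⟩
    · rw [qs]
      push_cast
      rfl
    · have := norm_qs h2s
      rw [qs, Complex.norm_real, Real.norm_eq_abs] at this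
      rwa [abs_neg]
  rw [e1, hy, kS_S hy1, ← hy, kap_neg, kap_inv hs0, hx]
  have e2 : (Complex.log (qs s)) = -Real.pi * s := by
    rw [qs, ← Complex.ofReal_log (Real.exp_pos _).le, Real.log_exp]
    push_cast
    ring
  rw [e2]
  field_simp

lemma norm_mob_lt {u : ℂ} (h : 0 < u.re) : ‖(u - 1) / (u + 1)‖ < 1 := by
  have h1 : u + 1 ≠ 0 := by
    intro h2
    have h3 : u.re + 1 = 0 := by
      have := congrArg Complex.re h2
      simpa using this
    linarith
  rw [norm_div, div_lt_one (norm_pos_iff.mpr h1)]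
  have h2 : ‖u - 1‖ ^ 2 < ‖u + 1‖ ^ 2 := by
    rw [← Complex.normSq_eq_norm_sq, ← Complex.normSq_eq_norm_sq, Complex.normSq_apply,
      Complex.normSq_apply]
    simp only [Complex.sub_re, Complex.add_re, Complex.one_re, Complex.sub_im, Complex.add_im,
      Complex.one_im]
    nlinarith
  exact lt_of_pow_lt_pow_left₀ 2 (norm_nonneg _) h2

/-- **the connection formula of the `K`-equation** -/
theorem kid {u : ℂ} (h1 : ‖u‖ < 1) (h2 : 0 < u.re) :
    -(kS u * (Complex.log u - 2 * (Real.log 2 : ℂ)) + mS u)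
      = Real.pi / (1 + u) * kS ((u - 1) / (u + 1)) := by
  set Om : Set ℂ := ball 0 1 ∩ {u | 0 < u.re} with hOm
  have hconv : Convex ℝ Om := (convex_ball 0 1).inter (convex_halfSpace_re_gt 0)
  have hL : AnalyticOnNhd ℂ (fun u => -(kS u * (Complex.log u - 2 * (Real.log 2 : ℂ)) + mS u)) Om := by
    intro w hw
    have hw1 : ‖w‖ < 1 := by simpa using hw.1
    have hw2 : w ∈ slitPlane := Or.inl hw.2
    exact (((analyticAt_kS hw1).mul ((analyticAt_id.clog hw2).sub analyticAt_const)).add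
      (analyticAt_mS hw1)).neg
  have hR : AnalyticOnNhd ℂ (fun u => Real.pi / (1 + u) * kS ((u - 1) / (u + 1))) Om := by
    intro w hw
    have hw2 : (0 : ℝ) < w.re := hw.2
    have h3 : 1 + w ≠ 0 := by
      intro h
      have := congrArg Complex.re h
      simp at this
      linarith
    have h3' : w + 1 ≠ 0 := by rwa [add_comm]
    have h4 : AnalyticAt ℂ (fun u : ℂ => (u - 1) / (u + 1)) w :=
      (analyticAt_id.sub analyticAt_const).div (analyticAt_id.add analyticAt_const) h3'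
    have h5 : AnalyticAt ℂ (fun u : ℂ => kS ((u - 1) / (u + 1))) w :=
      AnalyticAt.comp (g := kS) (f := fun u : ℂ => (u - 1) / (u + 1))
        (analyticAt_kS (norm_mob_lt hw2)) h4
    exact (analyticAt_const.div (analyticAt_const.add analyticAt_id) h3).mul h5
  -- the point `S (1/2)`
  have hhalf : |(1 / 2 : ℝ)| < 1 := by norm_num [abs_of_pos]
  obtain ⟨y, hy, hy0, hy1⟩ := S_pos (x := 1 / 2) (by norm_num) (by norm_num)
  have hmem : S ((1 / 2 : ℝ) : ℂ) ∈ Om := by
    rw [hy]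
    refine ⟨?_, ?_⟩
    · rw [mem_ball_zero_iff, Complex.norm_real, Real.norm_eq_abs, abs_of_pos hy0]
      exact hy1
    · show 0 < ((y : ℂ)).re
      rw [Complex.ofReal_re]
      exact hy0
  have hfreq : ∃ᶠ w in 𝓝[≠] (S ((1 / 2 : ℝ) : ℂ)),
      -(kS w * (Complex.log w - 2 * (Real.log 2 : ℂ)) + mS w)
        = Real.pi / (1 + w) * kS ((w - 1) / (w + 1)) := by
    have hn : ‖((1 / 2 : ℝ) : ℂ)‖ < 1 := norm_real_lt hhalf
    have hd : HasDerivAt S (deriv S ((1 / 2 : ℝ) : ℂ)) ((1 / 2 : ℝ) : ℂ) :=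
      (hol_S.at hn).hasDerivAt
    have ht1 : Tendsto S (𝓝[≠] ((1 / 2 : ℝ) : ℂ)) (𝓝[≠] (S ((1 / 2 : ℝ) : ℂ))) :=
      hd.tendsto_nhdsNE (deriv_S_ne hn)
    have ht2 : Tendsto (fun x : ℝ => (x : ℂ)) (𝓝[≠] (1 / 2 : ℝ)) (𝓝[≠] ((1 / 2 : ℝ) : ℂ)) := by
      refine tendsto_nhdsWithin_of_tendsto_nhds_of_eventually_within _ ?_ ?_
      · exact (Complex.continuous_ofReal.tendsto _).mono_left nhdsWithin_le_nhds
      · filter_upwards [self_mem_nhdsWithin] with x hx
        intro h
        exact hx (Complex.ofReal_injective h)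
    have ht := ht1.comp ht2
    refine ht.frequently (Eventually.frequently ?_)
    have h3 : ∀ᶠ x : ℝ in 𝓝[≠] (1 / 2 : ℝ), 0 < x ∧ x < 1 := by
      refine mem_nhdsWithin_of_mem_nhds ?_
      exact Ioo_mem_nhds (by norm_num) (by norm_num)
    filter_upwards [h3] with x hx
    exact kid_real hx.1 hx.2
  exact hL.eqOn_of_preconnected_of_frequently_eq hR hconv.isPreconnected hmem hfreq
    ⟨by simpa using h1, h2⟩

end Vale.Agent.P030.H810
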