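import Vale.Agent.P030.H810.Groups

/-!
P030, function layer, file 7: the bridge from the columns of `T/Defs.lean` to holomorphic functions
of the disc (uniformisation `t = S z` at all four cusps).

`Phi x g j`    : the component `j` of the functional `g`, as a function of `z`, holomorphic on `|z| < 1`;
`monF D c i`   : the row monomial as a function of `z`;
`lead`         : if a row vector is killed by the columns `(g,m)`, `m < k`, then the section is
                 `z^k G z` with `G` holomorphic and `G 0 = 4^k *` (value of the column `(g,k)`).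
-/

open PowerSeries Filter Topology Complex Metric

namespace Vale.Agent.P030.H810

open Vale.Agent.P030.T Vale.Agent.P030.H605

/-- component `j` of the functional `g` pulled back to the disc -/
noncomputable def Phi0 (g : Gp) (j : Fin 8) : ℂ → ℂ := (extQ_tup0 g j).choose

/-- the coefficient of `x` -/
noncomputable def Phi1 (g : Gp) (j : Fin 8) : ℂ → ℂ := (extQ_tup1 g j).choose

lemma hol_Phi0 (g : Gp) (j : Fin 8) : Hol (Phi0 g j) := (extQ_tup0 g j).choose_spec.1

lemma hol_Phi1 (g : Gp) (j : Fin 8) : Hol (Phi1 g j) := (extQ_tup1 g j).choose_spec.1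

lemma ser_Phi0 (g : Gp) (j : Fin 8) : Ser S 0 (cm (tup0 g j)) (Phi0 g j) :=
  (extQ_tup0 g j).choose_spec.2

lemma ser_Phi1 (g : Gp) (j : Fin 8) : Ser S 0 (cm (tup1 g j)) (Phi1 g j) :=
  (extQ_tup1 g j).choose_spec.2

/-- component `j` of the functional `g` at the point `x`, as a function on the disc -/
noncomputable def Phi (x : ℂ) (g : Gp) (j : Fin 8) (z : ℂ) : ℂ := Phi0 g j z + x * Phi1 g j z

lemma hol_Phi (x : ℂ) (g : Gp) (j : Fin 8) : Hol (Phi x g j) :=
  (hol_Phi0 g j).add ((hol_Phi1 g j).const_mul x)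

lemma ser_Phi (x : ℂ) (g : Gp) (j : Fin 8) :
    Ser S 0 (cm (tup0 g j) + PowerSeries.C x * cm (tup1 g j)) (Phi x g j) :=
  (ser_Phi0 g j).add ((Ser.const x).mul (ser_Phi1 g j))

/-- the row monomials as functions on the disc -/
noncomputable def monF (D : ℕ) (c : Fin 4) (i : ℕ) (z : ℂ) : ℂ :=
  match c with
  | 0 => S z ^ i * ((1 - S z)⁻¹) ^ (D - 1)
  | 1 => ((-1) ^ i / 2 ^ (D - 1)) * ((1 + S z) ^ i * (1 - S z) ^ (D - 1 - i))
  | 2 => ((-1) ^ (D - 1)) * (S z ^ (D - 1 - i) * ((1 - S z)⁻¹) ^ (D - 1))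
  | 3 => (1 / (-2) ^ (D - 1)) * ((1 + S z) ^ i * (1 - S z) ^ (D - 1 - i))

lemma cm_sc (q : ℚ) (p : ℚ⟦X⟧) : cm (sc q p) = PowerSeries.C (q : ℂ) * cm p := by
  rw [sc, map_mul, cm_C]

lemma ser_geo : Ser S 0 (cm geo) fun z => (1 - S z)⁻¹ := by
  refine ser_inv chartS (Ser.one.sub Ser.X) ?_
  have := congrArg cm geo_mul
  rwa [map_mul, map_sub, map_one, cm_X] at this

lemma ser_mon (D : ℕ) (c : Fin 4) (i : ℕ) : Ser S 0 (cm (mon D c i)) (monF D c i) := by
  have x : Ser S 0 PowerSeries.X S := Ser.X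
  have o : Ser S 0 1 fun _ => 1 := Ser.one
  fin_cases c
  · have := (x.pow i).mul (ser_geo.pow (D - 1))
    show Ser S 0 (cm (PowerSeries.X ^ i * geo ^ (D - 1))) _
    rw [map_mul, map_pow, map_pow, cm_X]
    exact this
  · have := (Ser.const (h := S) (z0 := 0) ((((-1) ^ i / 2 ^ (D - 1) : ℚ)) : ℂ)).mul
      (((o.add x).pow i).mul ((o.sub x).pow (D - 1 - i)))
    show Ser S 0 (cm (sc ((-1) ^ i / 2 ^ (D - 1))
      ((1 + PowerSeries.X) ^ i * (1 - PowerSeries.X) ^ (D - 1 - i)))) _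
    rw [cm_sc, map_mul, map_pow, map_pow, map_add, map_sub, map_one, cm_X]
    refine this.congr (Eventually.of_forall fun z => ?_)
    show _ = ((-1) ^ i / 2 ^ (D - 1)) * ((1 + S z) ^ i * (1 - S z) ^ (D - 1 - i))
    push_cast
    rfl
  · have := (Ser.const (h := S) (z0 := 0) ((((-1) ^ (D - 1) : ℚ)) : ℂ)).mul
      ((x.pow (D - 1 - i)).mul (ser_geo.pow (D - 1)))
    show Ser S 0 (cm (sc ((-1) ^ (D - 1)) (PowerSeries.X ^ (D - 1 - i) * geo ^ (D - 1)))) _
    rw [cm_sc, map_mul, map_pow, map_pow, cm_X]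
    refine this.congr (Eventually.of_forall fun z => ?_)
    show _ = ((-1) ^ (D - 1)) * (S z ^ (D - 1 - i) * ((1 - S z)⁻¹) ^ (D - 1))
    push_cast
    rfl
  · have := (Ser.const (h := S) (z0 := 0) (((1 / (-2) ^ (D - 1) : ℚ)) : ℂ)).mul
      (((o.add x).pow i).mul ((o.sub x).pow (D - 1 - i)))
    show Ser S 0 (cm (sc (1 / (-2) ^ (D - 1))
      ((1 + PowerSeries.X) ^ i * (1 - PowerSeries.X) ^ (D - 1 - i)))) _
    rw [cm_sc, map_mul, map_pow, map_pow, map_add, map_sub, map_one, cm_X]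
    refine this.congr (Eventually.of_forall fun z => ?_)
    show _ = (1 / (-2) ^ (D - 1)) * ((1 + S z) ^ i * (1 - S z) ^ (D - 1 - i))
    push_cast
    rfl

lemma hol_monF (D : ℕ) (c : Fin 4) (i : ℕ) : Hol (monF D c i) := by
  have o : Hol fun _ => (1 : ℂ) := hol_const 1
  have x : Hol S := hol_S
  have g : Hol fun z => (1 - S z)⁻¹ := (o.sub x).inv fun z hz => one_sub_S_ne hz
  fin_cases c
  · exact (x.pow _).mul (g.pow _)
  · exact (((o.add x).pow _).mul ((o.sub x).pow _)).const_mul _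
  · exact ((x.pow _).mul (g.pow _)).const_mul _
  · exact (((o.add x).pow _).mul ((o.sub x).pow _)).const_mul _

/-- the section of a row vector at the group `g`, as a function on the disc -/
noncomputable def sec {D : ℕ} (x : ℂ) (g : Gp) (v : Fin D × Fin 8 → ℂ) (z : ℂ) : ℂ :=
  ∑ r : Fin D × Fin 8, v r * (monF D g.cusp r.1 z * Phi x g r.2 z)

lemma hol_sec {D : ℕ} (x : ℂ) (g : Gp) (v : Fin D × Fin 8 → ℂ) : Hol (sec x g v) := by
  have : ∀ r : Fin D × Fin 8, Hol fun z => v r * (monF D g.cusp r.1 z * Phi x g r.2 z) :=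
    fun r => ((hol_monF D g.cusp r.1).mul (hol_Phi x g r.2)).const_mul _
  exact DifferentiableOn.fun_sum fun r _ => this r

/-- the value of the column `(g,k)` on the row vector `v` -/
noncomputable def colVal {D : ℕ} (x : ℂ) (g : Gp) (k : ℕ) (v : Fin D × Fin 8 → ℂ) : ℂ :=
  ∑ r : Fin D × Fin 8, v r * ((ent0 D g k r.1 r.2 : ℂ) + x * (ent1 D g k r.1 r.2 : ℂ))

/-- the series of the section -/
noncomputable def secS {D : ℕ} (x : ℂ) (g : Gp) (v : Fin D × Fin 8 → ℂ) : ℂ⟦X⟧ :=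
  ∑ r : Fin D × Fin 8, PowerSeries.C (v r) * (cm (mon D g.cusp r.1) *
    (cm (tup0 g r.2) + PowerSeries.C x * cm (tup1 g r.2)))

lemma ser_sec {D : ℕ} (x : ℂ) (g : Gp) (v : Fin D × Fin 8 → ℂ) : Ser S 0 (secS x g v) (sec x g v) :=
  Ser.sum Finset.univ fun r _ => (Ser.const (v r)).mul ((ser_mon D g.cusp r.1).mul (ser_Phi x g r.2))

lemma coeff_secS {D : ℕ} (x : ℂ) (g : Gp) (k : ℕ) (v : Fin D × Fin 8 → ℂ) :
    coeff k (secS x g v) = colVal x g k v := by
  rw [secS, colVal, map_sum]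
  refine Finset.sum_congr rfl fun r _ => ?_
  rw [coeff_C_mul, mul_add, map_add, mul_left_comm, coeff_C_mul, ← map_mul, ← map_mul,
    coeff_cm, coeff_cm]
  rfl

/-- **the bridge** -/
theorem lead {D : ℕ} (x : ℂ) (g : Gp) (v : Fin D × Fin 8 → ℂ) (k : ℕ)
    (h : ∀ m < k, colVal x g m v = 0) :
    ∃ G : ℂ → ℂ, Hol G ∧ G 0 = 4 ^ k * colVal x g k v ∧
      ∀ z, ‖z‖ < 1 → sec x g v z = z ^ k * G z := by
  obtain ⟨G0, hG0, hG00, hG0e⟩ := (ser_sec x g v).leading chartS (k := k)
    (fun m hm => by rw [coeff_secS, h m hm])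
  rw [deriv_S_zero, coeff_secS] at hG00
  -- extend `G0` to the disc
  classical
  set G : ℂ → ℂ := fun z => if z = 0 then G0 0 else sec x g v z / z ^ k with hG
  have e0 : G =ᶠ[𝓝 0] G0 := by
    filter_upwards [hG0e] with z hz
    rcases eq_or_ne z 0 with rfl | hne
    · simp [hG]
    · simp only [hG, if_neg hne]
      rw [hz, sub_zero, mul_div_cancel_left₀ _ (pow_ne_zero k hne)]
  refine ⟨G, ?_, ?_, ?_⟩
  · refine hol_of_at fun z hz => ?_
    rcases eq_or_ne z 0 with rfl | hne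
    · exact hG0.differentiableAt.congr_of_eventuallyEq e0
    · have h1 : DifferentiableAt ℂ (fun w => sec x g v w / w ^ k) z :=
        ((hol_sec x g v).at hz).div (by fun_prop) (pow_ne_zero k hne)
      refine h1.congr_of_eventuallyEq ?_
      filter_upwards [isOpen_ne.mem_nhds hne] with w hw
      simp only [hG]
      exact if_neg hw
  · simp only [hG, if_true, hG00]
  · intro z hz
    rcases eq_or_ne z 0 with rfl | hne
    · have := hG0e.self_of_nhds
      rw [sub_zero] at this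
      simp only [hG, if_true]
      exact this
    · simp only [hG, if_neg hne]
      field_simp

/-- all components are bounded on smaller discs -/
theorem Phi_bounded (x : ℂ) {r : ℝ} (hr : r < 1) :
    ∃ B : ℝ, 1 ≤ B ∧ ∀ g j z, ‖z‖ ≤ r → ‖Phi x g j z‖ ≤ B := by
  have h1 : ∀ g : Gp, ∀ j : Fin 8, ∃ B : ℝ, ∀ z, ‖z‖ ≤ r → ‖Phi x g j z‖ ≤ B := by
    intro g j
    have hc : IsCompact (closedBall (0 : ℂ) r) := isCompact_closedBall _ _
    have hcont : ContinuousOn (Phi x g j) (closedBall (0 : ℂ) r) := by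
      refine (hol_Phi x g j).continuousOn.mono fun z hz => ?_
      rw [mem_disc]
      exact lt_of_le_of_lt (by simpa using hz) hr
    obtain ⟨B, hB⟩ := hc.exists_bound_of_continuousOn hcont
    exact ⟨B, fun z hz => hB z (by simpa using hz)⟩
  choose B hB using h1
  have : Fintype Gp := ⟨{.z1, .zl, .z8, .zab, .w1, .wl, .wy, .w8, .wab, .wf7, .v2, .vl, .v8, .vb,
    .x2, .xl, .x1}, fun g => by cases g <;> simp⟩
  refine ⟨1 + ∑ g : Gp, ∑ j : Fin 8, |B g j|, ?_, fun g j z hz => ?_⟩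
  · have : 0 ≤ ∑ g : Gp, ∑ j : Fin 8, |B g j| :=
      Finset.sum_nonneg fun g _ => Finset.sum_nonneg fun j _ => abs_nonneg _
    linarith
  · have h2 : |B g j| ≤ ∑ j : Fin 8, |B g j| :=
      Finset.single_le_sum (f := fun j => |B g j|) (fun j _ => abs_nonneg _) (Finset.mem_univ j)
    have h3 : ∑ j : Fin 8, |B g j| ≤ ∑ g : Gp, ∑ j : Fin 8, |B g j| :=
      Finset.single_le_sum (f := fun g => ∑ j : Fin 8, |B g j|)
        (fun g _ => Finset.sum_nonneg fun j _ => abs_nonneg _) (Finset.mem_univ g)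
    have h4 := hB g j z hz
    have h5 := le_abs_self (B g j)
    linarith

end Vale.Agent.P030.H810
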