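import Mathlib

/-!
P030, function layer, file 1: the two theta series on the unit disc and their doubling identities.

`A q = sum_{n in Z} q^(n^2)`, `C q = sum_{n in Z} q^(n^2+n)`.
-/

namespace Vale.Agent.P030.H810

open Complex Metric Set Filter Topology

/-- the exponent `n^2` -/
def e1 (n : ℤ) : ℕ := (n * n).natAbs

/-- the exponent `n (n+1)` -/
def e2 (n : ℤ) : ℕ := (n * (n + 1)).natAbs

lemma e1_cast (n : ℤ) : (e1 n : ℤ) = n * n := Int.natAbs_of_nonneg (mul_self_nonneg n)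

lemma e2_cast (n : ℤ) : (e2 n : ℤ) = n * (n + 1) := by
  apply Int.natAbs_of_nonneg
  rcases le_or_gt 0 n with h | h
  · positivity
  · have h1 : n + 1 ≤ 0 := by omega
    nlinarith

lemma e1_eq_zero {n : ℤ} : e1 n = 0 ↔ n = 0 := by
  unfold e1
  simp

lemma e2_eq_zero {n : ℤ} : e2 n = 0 ↔ n = 0 ∨ n = -1 := by
  unfold e2
  rw [Int.natAbs_eq_zero, mul_eq_zero]
  constructor
  · rintro (h | h)
    · exact Or.inl h
    · right; omega
  · rintro (h | h)
    · exact Or.inl h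
    · right; omega

lemma e1_zero : e1 0 = 0 := rfl

lemma e2_zero : e2 0 = 0 := rfl

lemma e2_neg_one : e2 (-1) = 0 := rfl

attribute [irreducible] e1 e2

/-- first theta series -/
noncomputable def A (q : ℂ) : ℂ := ∑' n : ℤ, q ^ e1 n

/-- second theta series -/
noncomputable def C (q : ℂ) : ℂ := ∑' n : ℤ, q ^ e2 n

lemma summable_e1 {r : ℝ} (h0 : 0 ≤ r) (h1 : r < 1) : Summable fun n : ℤ => r ^ e1 n := by
  apply Summable.of_nat_of_neg_add_one
  · refine Summable.of_nonneg_of_le (fun n => by positivity) (fun n => ?_)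
      (summable_geometric_of_lt_one h0 h1)
    refine pow_le_pow_of_le_one h0 h1.le ?_
    zify
    rw [e1_cast]
    have : (n : ℤ) = 0 ∨ 1 ≤ (n : ℤ) := by omega
    rcases this with h | h <;> nlinarith
  · refine Summable.of_nonneg_of_le (fun n => by positivity) (fun n => ?_)
      (summable_geometric_of_lt_one h0 h1)
    refine pow_le_pow_of_le_one h0 h1.le ?_
    zify
    rw [e1_cast]
    have : (0 : ℤ) ≤ (n : ℤ) := by omega
    nlinarith

lemma summable_e2 {r : ℝ} (h0 : 0 ≤ r) (h1 : r < 1) : Summable fun n : ℤ => r ^ e2 n := by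
  apply Summable.of_nat_of_neg_add_one
  · refine Summable.of_nonneg_of_le (fun n => by positivity) (fun n => ?_)
      (summable_geometric_of_lt_one h0 h1)
    refine pow_le_pow_of_le_one h0 h1.le ?_
    zify
    rw [e2_cast]
    have : (0 : ℤ) ≤ (n : ℤ) := by omega
    nlinarith
  · refine Summable.of_nonneg_of_le (fun n => by positivity) (fun n => ?_)
      (summable_geometric_of_lt_one h0 h1)
    refine pow_le_pow_of_le_one h0 h1.le ?_
    zify
    rw [e2_cast]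
    have : (0 : ℤ) ≤ (n : ℤ) := by omega
    nlinarith

lemma summable_norm_e1 {q : ℂ} (h : ‖q‖ < 1) : Summable fun n : ℤ => ‖q ^ e1 n‖ := by
  simpa [norm_pow] using summable_e1 (norm_nonneg q) h

lemma summable_norm_e2 {q : ℂ} (h : ‖q‖ < 1) : Summable fun n : ℤ => ‖q ^ e2 n‖ := by
  simpa [norm_pow] using summable_e2 (norm_nonneg q) h

/-- parity splitting of `Z x Z`, as a map -/
def splitMap : (ℤ × ℤ) ⊕ (ℤ × ℤ) → ℤ × ℤ
  | Sum.inl p => (p.1 + p.2, p.1 - p.2)
  | Sum.inr p => (p.1 + p.2 + 1, p.1 - p.2)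

lemma splitMap_bijective : Function.Bijective splitMap := by
  constructor
  · rintro (⟨a, b⟩ | ⟨a, b⟩) (⟨c, d⟩ | ⟨c, d⟩) h
    · have h1 : a + b = c + d := congrArg Prod.fst h
      have h2 : a - b = c - d := congrArg Prod.snd h
      have h3 : a = c := by omega
      have h4 : b = d := by omega
      rw [h3, h4]
    · have h1 : a + b = c + d + 1 := congrArg Prod.fst h
      have h2 : a - b = c - d := congrArg Prod.snd h
      omega
    · have h1 : a + b + 1 = c + d := congrArg Prod.fst h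
      have h2 : a - b = c - d := congrArg Prod.snd h
      omega
    · have h1 : a + b + 1 = c + d + 1 := congrArg Prod.fst h
      have h2 : a - b = c - d := congrArg Prod.snd h
      have h3 : a = c := by omega
      have h4 : b = d := by omega
      rw [h3, h4]
  · rintro ⟨m, n⟩
    by_cases h : (m + n) % 2 = 0
    · refine ⟨Sum.inl ((m + n) / 2, (m - n) / 2), Prod.ext ?_ ?_⟩
      · show (m + n) / 2 + (m - n) / 2 = m
        omega
      · show (m + n) / 2 - (m - n) / 2 = n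
        omega
    · refine ⟨Sum.inr ((m + n - 1) / 2, (m - n - 1) / 2), Prod.ext ?_ ?_⟩
      · show (m + n - 1) / 2 + (m - n - 1) / 2 + 1 = m
        omega
      · show (m + n - 1) / 2 - (m - n - 1) / 2 = n
        omega

/-- parity splitting of `Z x Z` -/
noncomputable def splitEquiv : (ℤ × ℤ) ⊕ (ℤ × ℤ) ≃ ℤ × ℤ :=
  Equiv.ofBijective splitMap splitMap_bijective

lemma tsum_split {f : ℤ × ℤ → ℂ} (hf : Summable f) :
    ∑' p, f p = (∑' p : ℤ × ℤ, f (p.1 + p.2, p.1 - p.2)) +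
      ∑' p : ℤ × ℤ, f (p.1 + p.2 + 1, p.1 - p.2) := by
  have h1 : Summable (fun p => f (splitEquiv p)) := splitEquiv.summable_iff.mpr hf
  rw [← splitEquiv.tsum_eq f]
  exact Summable.tsum_sum (h1.comp_injective Sum.inl_injective)
    (h1.comp_injective Sum.inr_injective)

lemma tsum_split' {g : ℤ → ℤ → ℂ} (hf : Summable fun p : ℤ × ℤ => g p.1 p.2) :
    ∑' p : ℤ × ℤ, g p.1 p.2 = (∑' p : ℤ × ℤ, g (p.1 + p.2) (p.1 - p.2)) +
      ∑' p : ℤ × ℤ, g (p.1 + p.2 + 1) (p.1 - p.2) :=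
  tsum_split hf

lemma norm_sq_lt {q : ℂ} (h : ‖q‖ < 1) : ‖q ^ 2‖ < 1 := by
  rw [norm_pow]
  exact pow_lt_one₀ (norm_nonneg q) h two_ne_zero

lemma e1_add (a b : ℤ) : e1 (a + b) + e1 (a - b) = 2 * e1 a + 2 * e1 b := by
  have h : ((e1 (a + b) + e1 (a - b) : ℕ) : ℤ) = ((2 * e1 a + 2 * e1 b : ℕ) : ℤ) := by
    push_cast
    rw [e1_cast, e1_cast, e1_cast, e1_cast]
    ring
  exact_mod_cast h

lemma e1_add' (a b : ℤ) : e1 (a + b + 1) + e1 (a - b) = 1 + (2 * e2 a + 2 * e2 b) := by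
  have h : ((e1 (a + b + 1) + e1 (a - b) : ℕ) : ℤ) = ((1 + (2 * e2 a + 2 * e2 b) : ℕ) : ℤ) := by
    push_cast
    rw [e1_cast, e1_cast, e2_cast, e2_cast]
    ring
  exact_mod_cast h

lemma e2_add (a b : ℤ) : e2 (a + b) + e2 (a - b) = 2 * e2 a + 2 * e1 b := by
  have h : ((e2 (a + b) + e2 (a - b) : ℕ) : ℤ) = ((2 * e2 a + 2 * e1 b : ℕ) : ℤ) := by
    push_cast
    rw [e2_cast, e2_cast, e2_cast, e1_cast]
    ring
  exact_mod_cast h

lemma e2_add' (a b : ℤ) : e2 (a + b + 1) + e2 (a - b) = 2 * e1 (a + 1) + 2 * e2 b := by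
  have h : ((e2 (a + b + 1) + e2 (a - b) : ℕ) : ℤ) = ((2 * e1 (a + 1) + 2 * e2 b : ℕ) : ℤ) := by
    push_cast
    rw [e2_cast, e2_cast, e1_cast, e2_cast]
    ring
  exact_mod_cast h

lemma A_mul_A {q : ℂ} (h : ‖q‖ < 1) : A q ^ 2 = ∑' p : ℤ × ℤ, q ^ e1 p.1 * q ^ e1 p.2 := by
  rw [sq, A, tsum_mul_tsum_of_summable_norm (summable_norm_e1 h) (summable_norm_e1 h)]

lemma C_mul_C {q : ℂ} (h : ‖q‖ < 1) : C q ^ 2 = ∑' p : ℤ × ℤ, q ^ e2 p.1 * q ^ e2 p.2 := by
  rw [sq, C, tsum_mul_tsum_of_summable_norm (summable_norm_e2 h) (summable_norm_e2 h)]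

/-- first doubling identity -/
theorem A_sq {q : ℂ} (h : ‖q‖ < 1) : A q ^ 2 = A (q ^ 2) ^ 2 + q * C (q ^ 2) ^ 2 := by
  have hs : Summable fun p : ℤ × ℤ => q ^ e1 p.1 * q ^ e1 p.2 :=
    summable_mul_of_summable_norm (f := fun n : ℤ => q ^ e1 n) (g := fun n : ℤ => q ^ e1 n)
      (summable_norm_e1 h) (summable_norm_e1 h)
  have k1 : ∀ a b : ℤ, q ^ e1 (a + b) * q ^ e1 (a - b) = (q ^ 2) ^ e1 a * (q ^ 2) ^ e1 b := by
    intro a b
    rw [← pow_add, e1_add, pow_add, pow_mul, pow_mul]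
  have k2 : ∀ a b : ℤ, q ^ e1 (a + b + 1) * q ^ e1 (a - b) =
      q * ((q ^ 2) ^ e2 a * (q ^ 2) ^ e2 b) := by
    intro a b
    rw [← pow_add, e1_add', pow_add, pow_add, pow_mul, pow_mul, pow_one]
  rw [A_mul_A h, tsum_split' (g := fun m n => q ^ e1 m * q ^ e1 n) hs, A_mul_A (norm_sq_lt h),
    C_mul_C (norm_sq_lt h), ← tsum_mul_left]
  exact congrArg₂ (· + ·) (tsum_congr fun p => k1 p.1 p.2) (tsum_congr fun p => k2 p.1 p.2)

/-- second doubling identity -/
theorem C_sq {q : ℂ} (h : ‖q‖ < 1) : C q ^ 2 = 2 * A (q ^ 2) * C (q ^ 2) := by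
  have h2 := norm_sq_lt h
  have hs : Summable fun p : ℤ × ℤ => q ^ e2 p.1 * q ^ e2 p.2 :=
    summable_mul_of_summable_norm (f := fun n : ℤ => q ^ e2 n) (g := fun n : ℤ => q ^ e2 n)
      (summable_norm_e2 h) (summable_norm_e2 h)
  have ea : C (q ^ 2) * A (q ^ 2) = ∑' p : ℤ × ℤ, (q ^ 2) ^ e2 p.1 * (q ^ 2) ^ e1 p.2 := by
    rw [A, C, tsum_mul_tsum_of_summable_norm (summable_norm_e2 h2) (summable_norm_e1 h2)]
  have eshift : A (q ^ 2) = ∑' n : ℤ, (q ^ 2) ^ e1 (n + 1) := by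
    rw [A, ← (Equiv.addRight (1 : ℤ)).tsum_eq (fun n : ℤ => (q ^ 2) ^ e1 n)]
    rfl
  have hsh : Summable fun n : ℤ => ‖(q ^ 2) ^ e1 (n + 1)‖ :=
    (Equiv.addRight (1 : ℤ)).summable_iff.mpr (summable_norm_e1 h2)
  have eb : A (q ^ 2) * C (q ^ 2) =
      ∑' p : ℤ × ℤ, (q ^ 2) ^ e1 (p.1 + 1) * (q ^ 2) ^ e2 p.2 := by
    rw [eshift, C, tsum_mul_tsum_of_summable_norm hsh (summable_norm_e2 h2)]
  have e3 : 2 * A (q ^ 2) * C (q ^ 2) = C (q ^ 2) * A (q ^ 2) + A (q ^ 2) * C (q ^ 2) := by ring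
  have k1 : ∀ a b : ℤ, q ^ e2 (a + b) * q ^ e2 (a - b) = (q ^ 2) ^ e2 a * (q ^ 2) ^ e1 b := by
    intro a b
    rw [← pow_add, e2_add, pow_add, pow_mul, pow_mul]
  have k2 : ∀ a b : ℤ, q ^ e2 (a + b + 1) * q ^ e2 (a - b) =
      (q ^ 2) ^ e1 (a + 1) * (q ^ 2) ^ e2 b := by
    intro a b
    rw [← pow_add, e2_add', pow_add, pow_mul, pow_mul]
  rw [e3, C_mul_C h, tsum_split' (g := fun m n => q ^ e2 m * q ^ e2 n) hs, ea, eb]
  exact congrArg₂ (· + ·) (tsum_congr fun p => k1 p.1 p.2) (tsum_congr fun p => k2 p.1 p.2)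

lemma A_neg_sq {q : ℂ} (h : ‖q‖ < 1) : A (-q) ^ 2 = A (q ^ 2) ^ 2 - q * C (q ^ 2) ^ 2 := by
  have h1 : ‖-q‖ < 1 := by rwa [norm_neg]
  have h2 := A_sq h1
  rw [neg_sq] at h2
  rw [h2]
  ring

/-- Jacobi's identity -/
theorem jacobi {q : ℂ} (h : ‖q‖ < 1) : A q ^ 4 - q * C q ^ 4 = A (-q) ^ 4 := by
  have h1 := A_sq h
  have h2 := A_neg_sq h
  have h3 := C_sq h
  have e1 : A q ^ 4 = (A q ^ 2) ^ 2 := by ring
  have e2 : C q ^ 4 = (C q ^ 2) ^ 2 := by ring
  have e3 : A (-q) ^ 4 = (A (-q) ^ 2) ^ 2 := by ring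
  rw [e1, e2, e3, h1, h2, h3]
  ring

theorem A_mul_A_neg {q : ℂ} (h : ‖q‖ < 1) : A q ^ 2 * A (-q) ^ 2 = A (-q ^ 2) ^ 4 := by
  have h2 := norm_sq_lt h
  rw [← jacobi h2, A_sq h, A_neg_sq h]
  ring

@[simp] lemma A_zero : A 0 = 1 := by
  rw [A, tsum_eq_single 0]
  · simp [e1_zero]
  · intro n hn
    exact zero_pow (by rwa [Ne, e1_eq_zero])

@[simp] lemma C_zero : C 0 = 2 := by
  rw [C, tsum_eq_sum (s := {0, -1})]
  · rw [Finset.sum_pair (by norm_num)]
    simp only [e2_zero, e2_neg_one, pow_zero]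
    norm_num
  · intro n hn
    refine zero_pow ?_
    rw [Ne, e2_eq_zero]
    simpa using hn

lemma differentiableOn_A : DifferentiableOn ℂ A (ball 0 1) := by
  intro z hz
  rw [mem_ball_zero_iff] at hz
  obtain ⟨r, h1, h2⟩ := exists_between hz
  have h0 : 0 ≤ r := (norm_nonneg z).trans h1.le
  have h3 : DifferentiableOn ℂ A (ball 0 r) :=
    differentiableOn_tsum_of_summable_norm (summable_e1 h0 h2)
      (fun i => (differentiable_id.pow (e1 i)).differentiableOn) isOpen_ball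
      (fun i w hw => by
        rw [mem_ball_zero_iff] at hw
        simpa [norm_pow] using pow_le_pow_left₀ (norm_nonneg w) hw.le (e1 i))
  exact ((h3.differentiableAt (isOpen_ball.mem_nhds (by simpa using h1)))).differentiableWithinAt

lemma differentiableOn_C : DifferentiableOn ℂ C (ball 0 1) := by
  intro z hz
  rw [mem_ball_zero_iff] at hz
  obtain ⟨r, h1, h2⟩ := exists_between hz
  have h0 : 0 ≤ r := (norm_nonneg z).trans h1.le
  have h3 : DifferentiableOn ℂ C (ball 0 r) :=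
    differentiableOn_tsum_of_summable_norm (summable_e2 h0 h2)
      (fun i => (differentiable_id.pow (e2 i)).differentiableOn) isOpen_ball
      (fun i w hw => by
        rw [mem_ball_zero_iff] at hw
        simpa [norm_pow] using pow_le_pow_left₀ (norm_nonneg w) hw.le (e2 i))
  exact ((h3.differentiableAt (isOpen_ball.mem_nhds (by simpa using h1)))).differentiableWithinAt

lemma continuousAt_A {z : ℂ} (hz : ‖z‖ < 1) : ContinuousAt A z :=
  (differentiableOn_A.differentiableAt (isOpen_ball.mem_nhds (by simpa using hz))).continuousAt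

lemma continuousAt_C {z : ℂ} (hz : ‖z‖ < 1) : ContinuousAt C z :=
  (differentiableOn_C.differentiableAt (isOpen_ball.mem_nhds (by simpa using hz))).continuousAt

/-- a sequence whose norm is at most `r ^ (2^n)` tends to zero -/
lemma tendsto_zero_of_norm {r : ℝ} (h0 : 0 ≤ r) (h1 : r < 1) {x : ℕ → ℂ}
    (hx : ∀ n, ‖x n‖ ≤ r ^ 2 ^ n) : Tendsto x atTop (𝓝 0) := by
  apply squeeze_zero_norm hx
  have h2 : Tendsto (fun n : ℕ => 2 ^ n) atTop atTop :=
    tendsto_pow_atTop_atTop_of_one_lt (by norm_num)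
  exact (tendsto_pow_atTop_nhds_zero_of_lt_one h0 h1).comp h2

/-- the first theta series has no zero in the unit disc -/
theorem A_ne_zero {q : ℂ} (h : ‖q‖ < 1) : A q ≠ 0 := by
  intro hA
  let x : ℕ → ℂ := fun n => Nat.rec q (fun _ y => -y ^ 2) n
  have hx0 : x 0 = q := rfl
  have hxs : ∀ n, x (n + 1) = -(x n) ^ 2 := fun n => rfl
  have hn : ∀ n, ‖x n‖ = ‖q‖ ^ 2 ^ n := by
    intro n
    induction n with
    | zero => simp [hx0]
    | succ n ih => rw [hxs, norm_neg, norm_pow, ih, ← pow_mul, pow_succ]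
  have hlt : ∀ n, ‖x n‖ < 1 := by
    intro n
    rw [hn]
    exact pow_lt_one₀ (norm_nonneg q) h (by positivity)
  have hz : ∀ n, A (x n) = 0 := by
    intro n
    induction n with
    | zero => exact hA
    | succ n ih =>
      have h4 := A_mul_A_neg (hlt n)
      rw [ih] at h4
      rw [hxs]
      have h5 : A (-(x n) ^ 2) ^ 4 = 0 := by rw [← h4]; ring
      exact pow_eq_zero_iff (by norm_num) |>.mp h5
  have ht : Tendsto x atTop (𝓝 0) := tendsto_zero_of_norm (norm_nonneg q) h (fun n => (hn n).le)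
  have h0 : ‖(0 : ℂ)‖ < 1 := by simp
  have hA0 : Tendsto (fun n => A (x n)) atTop (𝓝 (A 0)) := (continuousAt_A h0).tendsto.comp ht
  simp only [hz, A_zero] at hA0
  exact zero_ne_one (tendsto_nhds_unique tendsto_const_nhds hA0)

/-- the second theta series has no zero in the unit disc -/
theorem C_ne_zero {q : ℂ} (h : ‖q‖ < 1) : C q ≠ 0 := by
  intro hC
  let x : ℕ → ℂ := fun n => q ^ 2 ^ n
  have hn : ∀ n, ‖x n‖ = ‖q‖ ^ 2 ^ n := fun n => norm_pow _ _
  have hlt : ∀ n, ‖x n‖ < 1 := by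
    intro n
    rw [hn]
    exact pow_lt_one₀ (norm_nonneg q) h (by positivity)
  have hz : ∀ n, C (x n) = 0 := by
    intro n
    induction n with
    | zero => simpa [x] using hC
    | succ n ih =>
      have h4 := C_sq (hlt n)
      rw [ih] at h4
      have h6 : x (n + 1) = (x n) ^ 2 := by
        simp only [x]
        rw [← pow_mul, pow_succ]
      rw [h6]
      have h5 : 2 * A (x n ^ 2) * C (x n ^ 2) = 0 := by rw [← h4]; ring
      rcases mul_eq_zero.mp h5 with h7 | h7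
      · rcases mul_eq_zero.mp h7 with h8 | h8
        · norm_num at h8
        · exact absurd h8 (A_ne_zero (norm_sq_lt (hlt n)))
      · exact h7
  have ht : Tendsto x atTop (𝓝 0) := tendsto_zero_of_norm (norm_nonneg q) h (fun n => (hn n).le)
  have h0 : ‖(0 : ℂ)‖ < 1 := by simp
  have hA0 : Tendsto (fun n => C (x n)) atTop (𝓝 (C 0)) := (continuousAt_C h0).tendsto.comp ht
  simp only [hz, C_zero] at hA0
  exact two_ne_zero (tendsto_nhds_unique tendsto_const_nhds hA0).symm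

end Vale.Agent.P030.H810
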